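import Vale.Agent.P181.R2.H71.W7

/-! P181 row Y1 (`family2`): mixed family. -/

set_option autoImplicit false

open scoped TensorProduct

namespace Vale.Agent.P181.FR

open Vale.Agent.P181 Vale.Agent.P181.H280

namespace Y1H

open W7H

section Gen

variable {i m : ℕ}

section Ring

variable {R S : Type} [CommRing R] [CommRing S]

/-- The first `2 x 2` minor of two points. -/
def M2 {B : ℕ} (h2 : 2 ≤ m) (x y : Fin B) (p : Fin B → Fin m → R) : R :=
  p x ⟨0, by omega⟩ * p y ⟨1, by omega⟩ - p x ⟨1, by omega⟩ * p y ⟨0, by omega⟩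

/-- The product of the minors of the pairs. -/
def ZD (hi : 1 ≤ i) (h2 : 2 ≤ m) (σ : Equiv.Perm (Fin (2 * i - 1 + 1)))
    (p : Fin (2 * i - 1 + 1) → Fin m → R) : R :=
  ∏ u : Fin i, M2 h2 (σ (ee i hi (Sum.inl u))) (σ (ee i hi (Sum.inr u))) p

def A1 (hi : 1 ≤ i) (h2 : 2 ≤ m) (p : Fin (2 * i - 1 + 1) → Fin m → R) : R :=
  ∑ σ : Equiv.Perm (Fin (2 * i - 1 + 1)), ZD hi h2 σ p ^ 2

def A3 (hi : 1 ≤ i) (h2 : 2 ≤ m) (p : Fin (2 * i - 1 + 1) → Fin m → R) : R :=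
  ∏ σ : Equiv.Perm (Fin (2 * i - 1 + 1)), ZD hi h2 σ p ^ 2

noncomputable def HH (hi : 1 ≤ i) (him : i ≤ m) (h2 : 2 ≤ m) (a b c d : ℕ)
    (p : Fin (2 * i - 1 + 1) → Fin m → R) : R :=
  A3 hi h2 p ^ a * A1 hi h2 p ^ b * F3 hi him p ^ (c + 1) * F1 hi him p ^ d

lemma map_HH (φ : R →+* S) (hi : 1 ≤ i) (him : i ≤ m) (h2 : 2 ≤ m) (a b c d : ℕ)
    (p : Fin (2 * i - 1 + 1) → Fin m → R) :
    φ (HH hi him h2 a b c d p) = HH hi him h2 a b c d (fun j l => φ (p j l)) := by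
  simp only [HH, A3, A1, ZD, M2, F1, F3, DD, map_mul, map_pow, map_sum, map_prod, map_sub, map_Br]

lemma ZD_perm (hi : 1 ≤ i) (h2 : 2 ≤ m) (σ τ : Equiv.Perm (Fin (2 * i - 1 + 1)))
    (p : Fin (2 * i - 1 + 1) → Fin m → R) :
    ZD hi h2 σ (fun j => p (τ j)) = ZD hi h2 (τ * σ) p := rfl

lemma HH_perm (hi : 1 ≤ i) (him : i ≤ m) (h2 : 2 ≤ m) (a b c d : ℕ)
    (τ : Equiv.Perm (Fin (2 * i - 1 + 1))) (p : Fin (2 * i - 1 + 1) → Fin m → R) :
    HH hi him h2 a b c d (fun j => p (τ j)) = HH hi him h2 a b c d p := by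
  have h1 : A1 hi h2 (fun j => p (τ j)) = A1 hi h2 p := by
    unfold A1
    simp only [ZD_perm]
    exact Equiv.sum_comp (Equiv.mulLeft τ) (fun σ => ZD hi h2 σ p ^ 2)
  have h3 : A3 hi h2 (fun j => p (τ j)) = A3 hi h2 p := by
    unfold A3
    simp only [ZD_perm]
    exact Equiv.prod_comp (Equiv.mulLeft τ) (fun σ => ZD hi h2 σ p ^ 2)
  have h4 : F1 hi him (fun j => p (τ j)) = F1 hi him p := by
    unfold F1
    simp only [DD_perm]
    exact Equiv.sum_comp (Equiv.mulLeft τ) (fun σ => DD hi him σ p ^ 2)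
  have h5 : F3 hi him (fun j => p (τ j)) = F3 hi him p := by
    unfold F3
    simp only [DD_perm]
    exact Equiv.prod_comp (Equiv.mulLeft τ) (fun σ => DD hi him σ p ^ 2)
  unfold HH
  rw [h1, h3, h4, h5]

lemma HH_diag (hi : 3 ≤ i) (him : i ≤ m) (h2 : 2 ≤ m) (a b c d : ℕ)
    (p : Fin (2 * i - 1 + 1) → Fin m → R) (u v : Fin (2 * i - 1 + 1)) (huv : u ≠ v)
    (h : p u = p v) : HH (by omega : 1 ≤ i) him h2 a b c d p = 0 := by
  have h3 : F3 (by omega : 1 ≤ i) him p = 0 := by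
    have := GG_diag hi him 0 0 0 p u v huv h
    unfold GG at this
    simpa using this
  unfold HH
  rw [h3, zero_pow (Nat.succ_ne_zero c), mul_zero, zero_mul]

end Ring

lemma ZD_mem (hi : 1 ≤ i) (h2 : 2 ≤ m) (σ : Equiv.Perm (Fin (2 * i - 1 + 1))) :
    (ZD hi h2 σ : (Fin (2 * i - 1 + 1) → Fin m → ℂ) → ℂ) ∈ MP (2 * i - 1 + 1) m 1 := by
  classical
  set sg : Fin 2 → ℂ := ![1, -1] with hsg
  set cx : Fin 2 → Fin m := ![⟨0, by omega⟩, ⟨1, by omega⟩] with hcx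
  set cy : Fin 2 → Fin m := ![⟨1, by omega⟩, ⟨0, by omega⟩] with hcy
  have hM : ∀ (x y : Fin (2 * i - 1 + 1)) (p : Fin (2 * i - 1 + 1) → Fin m → ℂ),
      M2 h2 x y p = ∑ s : Fin 2, sg s * (p x (cx s) * p y (cy s)) := by
    intro x y p
    rw [Fin.sum_univ_two]
    simp [M2, hsg, hcx, hcy]
    ring
  have h : (ZD hi h2 σ : (Fin (2 * i - 1 + 1) → Fin m → ℂ) → ℂ) =
      ∑ c : Fin i → Fin 2, (∏ u, sg (c u)) •
        (fun p : Fin (2 * i - 1 + 1) → Fin m → ℂ => ∏ j, p j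
          (Sum.elim (fun k => cx (c k)) (fun k => cy (c k)) ((ee i hi).symm (σ.symm j)))) := by
    funext p
    unfold ZD
    simp only [hM]
    rw [Finset.prod_univ_sum, Finset.sum_apply, Fintype.piFinset_univ]
    refine Finset.sum_congr rfl (fun c _ => ?_)
    simp only [Pi.smul_apply, smul_eq_mul]
    rw [← Equiv.prod_comp ((ee i hi).trans σ) (fun j => p j _), Fintype.prod_sum_type]
    simp only [Equiv.trans_apply, Equiv.symm_apply_apply, Sum.elim_inl, Sum.elim_inr]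
    rw [Finset.prod_mul_distrib, Finset.prod_mul_distrib]
  rw [h]
  exact Submodule.sum_mem _ (fun c _ => Submodule.smul_mem _ _ (MP_coord _))

lemma HH_mem (hi : 1 ≤ i) (him : i ≤ m) (h2 : 2 ≤ m) (a b c d : ℕ) :
    (HH hi him h2 a b c d : (Fin (2 * i - 1 + 1) → Fin m → ℂ) → ℂ) ∈ MP (2 * i - 1 + 1) m
      (a * (Fintype.card (Equiv.Perm (Fin (2 * i - 1 + 1))) * 2) + b * 2 +
        (c + 1) * (Fintype.card (Equiv.Perm (Fin (2 * i - 1 + 1))) * 2) + d * 2) := by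
  classical
  have hD : ∀ σ : Equiv.Perm (Fin (2 * i - 1 + 1)),
      (DD hi him σ : (Fin (2 * i - 1 + 1) → Fin m → ℂ) → ℂ) ^ 2 ∈ MP (2 * i - 1 + 1) m 2 := by
    intro σ
    simpa using MP_pow' (DD_mem hi him σ) 2
  have hZ : ∀ σ : Equiv.Perm (Fin (2 * i - 1 + 1)),
      (ZD hi h2 σ : (Fin (2 * i - 1 + 1) → Fin m → ℂ) → ℂ) ^ 2 ∈ MP (2 * i - 1 + 1) m 2 := by
    intro σ
    simpa using MP_pow' (ZD_mem hi h2 σ) 2
  have h1 : (F1 hi him : (Fin (2 * i - 1 + 1) → Fin m → ℂ) → ℂ) ∈ MP (2 * i - 1 + 1) m 2 := by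
    have e : (F1 hi him : (Fin (2 * i - 1 + 1) → Fin m → ℂ) → ℂ) =
        ∑ σ : Equiv.Perm (Fin (2 * i - 1 + 1)), (DD hi him σ) ^ 2 := by
      funext p
      simp only [F1, Finset.sum_apply, Pi.pow_apply]
    rw [e]
    exact Submodule.sum_mem _ (fun σ _ => hD σ)
  have h1' : (A1 hi h2 : (Fin (2 * i - 1 + 1) → Fin m → ℂ) → ℂ) ∈ MP (2 * i - 1 + 1) m 2 := by
    have e : (A1 hi h2 : (Fin (2 * i - 1 + 1) → Fin m → ℂ) → ℂ) =
        ∑ σ : Equiv.Perm (Fin (2 * i - 1 + 1)), (ZD hi h2 σ) ^ 2 := by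
      funext p
      simp only [A1, Finset.sum_apply, Pi.pow_apply]
    rw [e]
    exact Submodule.sum_mem _ (fun σ _ => hZ σ)
  have h3 : (F3 hi him : (Fin (2 * i - 1 + 1) → Fin m → ℂ) → ℂ) ∈
      MP (2 * i - 1 + 1) m (Fintype.card (Equiv.Perm (Fin (2 * i - 1 + 1))) * 2) := by
    have e : (F3 hi him : (Fin (2 * i - 1 + 1) → Fin m → ℂ) → ℂ) =
        ∏ σ : Equiv.Perm (Fin (2 * i - 1 + 1)), (DD hi him σ) ^ 2 := by
      funext p
      simp only [F3, Finset.prod_apply, Pi.pow_apply]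
    rw [e]
    have h := MP_prod Finset.univ
      (fun τ => (DD hi him τ : (Fin (2 * i - 1 + 1) → Fin m → ℂ) → ℂ) ^ 2) (fun τ _ => hD τ)
    rwa [Finset.card_univ] at h
  have h3' : (A3 hi h2 : (Fin (2 * i - 1 + 1) → Fin m → ℂ) → ℂ) ∈
      MP (2 * i - 1 + 1) m (Fintype.card (Equiv.Perm (Fin (2 * i - 1 + 1))) * 2) := by
    have e : (A3 hi h2 : (Fin (2 * i - 1 + 1) → Fin m → ℂ) → ℂ) =
        ∏ σ : Equiv.Perm (Fin (2 * i - 1 + 1)), (ZD hi h2 σ) ^ 2 := by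
      funext p
      simp only [A3, Finset.prod_apply, Pi.pow_apply]
    rw [e]
    have h := MP_prod Finset.univ
      (fun τ => (ZD hi h2 τ : (Fin (2 * i - 1 + 1) → Fin m → ℂ) → ℂ) ^ 2) (fun τ _ => hZ τ)
    rwa [Finset.card_univ] at h
  have e : (HH hi him h2 a b c d : (Fin (2 * i - 1 + 1) → Fin m → ℂ) → ℂ) =
      (A3 hi h2) ^ a * (A1 hi h2) ^ b * (F3 hi him) ^ (c + 1) * (F1 hi him) ^ d := by
    funext p
    simp only [HH, Pi.mul_apply, Pi.pow_apply]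
  rw [e]
  exact MP_mul (MP_mul (MP_mul (MP_pow' h3' a) (MP_pow' h1' b)) (MP_pow' h3 (c + 1)))
    (MP_pow' h1 d)

lemma M2_act {B : ℕ} (h2 : 2 ≤ m) (x y : Fin B) (g : Matrix (Fin m) (Fin m) ℂ)
    (hg : IsBorel g) (p : Fin B → Fin m → ℂ) :
    M2 h2 x y (fun j => Matrix.vecMul (p j) g) = ch h2 g * M2 h2 x y p := by
  classical
  have hc : ch h2 g = g ⟨0, by omega⟩ ⟨0, by omega⟩ * g ⟨1, by omega⟩ ⟨1, by omega⟩ := by
    unfold ch
    rw [Fin.prod_univ_two]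
    rfl
  have h0 : ∀ j, Matrix.vecMul (p j) g ⟨0, by omega⟩ =
      p j ⟨0, by omega⟩ * g ⟨0, by omega⟩ ⟨0, by omega⟩ := by
    intro j
    simp only [Matrix.vecMul, dotProduct]
    refine Finset.sum_eq_single _ (fun x _ hx => ?_) (fun h => absurd (Finset.mem_univ _) h)
    rw [hg.1 x ⟨0, by omega⟩ (by
      rw [Fin.lt_def]
      have : (x : ℕ) ≠ 0 := fun h => hx (Fin.ext h)
      simp only
      omega), mul_zero]
  have h1 : ∀ j, Matrix.vecMul (p j) g ⟨1, by omega⟩ =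
      p j ⟨0, by omega⟩ * g ⟨0, by omega⟩ ⟨1, by omega⟩ +
      p j ⟨1, by omega⟩ * g ⟨1, by omega⟩ ⟨1, by omega⟩ := by
    intro j
    simp only [Matrix.vecMul, dotProduct]
    refine Finset.sum_eq_add (⟨0, by omega⟩ : Fin m) ⟨1, by omega⟩ (by simp [Fin.ext_iff])
      (fun x _ hx => ?_) (fun h => absurd (Finset.mem_univ _) h)
      (fun h => absurd (Finset.mem_univ _) h)
    rw [hg.1 x ⟨1, by omega⟩ (by
      rw [Fin.lt_def]
      have h3 : (x : ℕ) ≠ 0 := fun h => hx.1 (Fin.ext h)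
      have h4 : (x : ℕ) ≠ 1 := fun h => hx.2 (Fin.ext h)
      simp only
      omega), mul_zero]
  unfold M2
  simp only [h0, h1, hc]
  ring

lemma ZD_act (hi : 1 ≤ i) (h2 : 2 ≤ m) (σ : Equiv.Perm (Fin (2 * i - 1 + 1)))
    (g : Matrix (Fin m) (Fin m) ℂ) (hg : IsBorel g) (p : Fin (2 * i - 1 + 1) → Fin m → ℂ) :
    ZD hi h2 σ (fun j => Matrix.vecMul (p j) g) = ch h2 g ^ i * ZD hi h2 σ p := by
  unfold ZD
  rw [Finset.prod_congr rfl (fun u _ => M2_act h2 _ _ g hg p), Finset.prod_mul_distrib,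
    Finset.prod_const, Finset.card_univ, Fintype.card_fin]

lemma HH_act (hi : 1 ≤ i) (him : i ≤ m) (h2 : 2 ≤ m) (a b c d e f : ℕ)
    (he : a * Fintype.card (Equiv.Perm (Fin (2 * i - 1 + 1))) + b = e)
    (hf : (c + 1) * Fintype.card (Equiv.Perm (Fin (2 * i - 1 + 1))) + d = f) :
    HWF (2 * i - 1 + 1) m ((2 * i * e) • om m 2 + (4 * f) • om m i)
      (HH hi him h2 a b c d) := by
  classical
  intro g hg p
  have hch : ∏ j, g j j ^ (((2 * i * e) • om m 2 + (4 * f) • om m i) j) =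
      ch h2 g ^ (2 * i * e) * ch him g ^ (4 * f) := by
    rw [← ch_om h2 g, ← ch_om him g, ← Finset.prod_mul_distrib]
    refine Finset.prod_congr rfl (fun j _ => ?_)
    rw [← pow_add]
    rfl
  rw [hch]
  have hD : ∀ σ : Equiv.Perm (Fin (2 * i - 1 + 1)),
      DD hi him σ (fun j => Matrix.vecMul (p j) g) ^ 2 = ch him g ^ 4 * DD hi him σ p ^ 2 := by
    intro σ
    unfold DD
    rw [Br_act him _ g hg, Br_act him _ g hg]
    ring
  have hZ : ∀ σ : Equiv.Perm (Fin (2 * i - 1 + 1)),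
      ZD hi h2 σ (fun j => Matrix.vecMul (p j) g) ^ 2 = ch h2 g ^ (2 * i) * ZD hi h2 σ p ^ 2 := by
    intro σ
    rw [ZD_act hi h2 σ g hg]
    rw [mul_pow, ← pow_mul, mul_comm i 2]
  have h1 : F1 hi him (fun j => Matrix.vecMul (p j) g) = ch him g ^ 4 * F1 hi him p := by
    unfold F1
    rw [Finset.mul_sum]
    exact Finset.sum_congr rfl (fun σ _ => hD σ)
  have h3 : F3 hi him (fun j => Matrix.vecMul (p j) g) =
      (ch him g ^ 4) ^ Fintype.card (Equiv.Perm (Fin (2 * i - 1 + 1))) * F3 hi him p := by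
    unfold F3
    rw [Finset.prod_congr rfl (fun σ _ => hD σ), Finset.prod_mul_distrib, Finset.prod_const,
      Finset.card_univ]
  have h1' : A1 hi h2 (fun j => Matrix.vecMul (p j) g) = ch h2 g ^ (2 * i) * A1 hi h2 p := by
    unfold A1
    rw [Finset.mul_sum]
    exact Finset.sum_congr rfl (fun σ _ => hZ σ)
  have h3' : A3 hi h2 (fun j => Matrix.vecMul (p j) g) =
      (ch h2 g ^ (2 * i)) ^ Fintype.card (Equiv.Perm (Fin (2 * i - 1 + 1))) * A3 hi h2 p := by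
    unfold A3
    rw [Finset.prod_congr rfl (fun σ _ => hZ σ), Finset.prod_mul_distrib, Finset.prod_const,
      Finset.card_univ]
  unfold HH
  rw [h1, h3, h1', h3', ← he, ← hf]
  simp only [mul_pow, ← pow_mul]
  have e1 : ch h2 g ^ (2 * i * (a * Fintype.card (Equiv.Perm (Fin (2 * i - 1 + 1))) + b)) =
      ch h2 g ^ (2 * i * (Fintype.card (Equiv.Perm (Fin (2 * i - 1 + 1)))) * a) *
        ch h2 g ^ (2 * i * b) := by
    rw [← pow_add]
    congr 1
    ring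
  have e2 : ch him g ^ (4 * ((c + 1) * Fintype.card (Equiv.Perm (Fin (2 * i - 1 + 1))) + d)) =
      ch him g ^ (4 * (Fintype.card (Equiv.Perm (Fin (2 * i - 1 + 1)))) * (c + 1)) *
        ch him g ^ (4 * d) := by
    rw [← pow_add]
    congr 1
    ring
  rw [e1, e2]
  ring


/-! ### Degrees -/

open Polynomial in
lemma P_deg1 {L : ℕ} (hL : 2 ≤ L) {α β γ : ℝ} (h : α ≠ 0) :
    (C α * X ^ L + C β * X ^ (L - 1) + C γ : ℝ[X]).natDegree ≤ L ∧
      (C α * X ^ L + C β * X ^ (L - 1) + C γ : ℝ[X]).coeff L ≠ 0 := by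
  refine ⟨?_, ?_⟩
  · refine (natDegree_add_le _ _).trans (max_le ((natDegree_add_le _ _).trans (max_le ?_ ?_)) ?_)
    · exact natDegree_C_mul_X_pow_le _ _
    · exact (natDegree_C_mul_X_pow_le _ _).trans (by omega)
    · rw [natDegree_C]
      omega
  · rw [coeff_add, coeff_add, coeff_C_mul, coeff_X_pow, if_pos rfl, coeff_C,
      if_neg (by omega), coeff_C_mul, coeff_X_pow, if_neg (by omega)]
    simpa using h

open Polynomial in
lemma P_deg2 {L : ℕ} (hL : 2 ≤ L) {β γ : ℝ} (h : β ≠ 0) :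
    (C (0 : ℝ) * X ^ L + C β * X ^ (L - 1) + C γ : ℝ[X]).natDegree ≤ L - 1 ∧
      (C (0 : ℝ) * X ^ L + C β * X ^ (L - 1) + C γ : ℝ[X]).coeff (L - 1) ≠ 0 := by
  rw [map_zero, zero_mul, zero_add]
  refine ⟨?_, ?_⟩
  · refine (natDegree_add_le _ _).trans (max_le ?_ ?_)
    · exact natDegree_C_mul_X_pow_le _ _
    · rw [natDegree_C]
      omega
  · rw [coeff_add, coeff_C_mul, coeff_X_pow, if_pos rfl, coeff_C,
      if_neg (by omega)]
    simpa using h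

lemma QD_prod {ι : Type} (T : Finset ι) (f : ι → Polynomial ℝ) (d : ι → ℕ)
    (h : ∀ s ∈ T, (f s).natDegree ≤ d s ∧ (f s).coeff (d s) ≠ 0) :
    (∏ s ∈ T, f s).natDegree ≤ ∑ s ∈ T, d s ∧ (∏ s ∈ T, f s).coeff (∑ s ∈ T, d s) ≠ 0 := by
  classical
  induction T using Finset.induction_on with
  | empty => simp
  | insert a T ha ih =>
    rw [Finset.prod_insert ha, Finset.sum_insert ha]
    have h1 := h a (Finset.mem_insert_self a T)
    have h2 := ih (fun s hs => h s (Finset.mem_insert_of_mem hs))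
    refine ⟨(Polynomial.natDegree_mul_le).trans (Nat.add_le_add h1.1 h2.1), ?_⟩
    rw [Polynomial.coeff_mul_add_eq_of_natDegree_le h1.1 h2.1]
    exact mul_ne_zero h1.2 h2.2

/-- The degree of a minor of two points. -/
def dp (i L : ℕ) (hi : 3 ≤ i) (x y : Fin (2 * i - 1 + 1)) : ℕ :=
  if (x = Fin.last (2 * i - 1) ∧ y = ⟨0, by omega⟩) ∨ (x = ⟨0, by omega⟩ ∧ y = Fin.last (2 * i - 1))
    then L - 1 else if x = Fin.last (2 * i - 1) ∨ y = Fin.last (2 * i - 1) then L else 0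

open Polynomial in
lemma M2_deg (hi : 3 ≤ i) (h2 : 2 ≤ m) (L : ℕ) (hL : 2 ≤ L) (x y : Fin (2 * i - 1 + 1))
    (hxy : x ≠ y) :
    (M2 h2 x y (XX i m L)).natDegree ≤ dp i L hi x y ∧
      (M2 h2 x y (XX i m L)).coeff (dp i L hi x y) ≠ 0 := by
  set v : ℝ := (((Fin.last (2 * i - 1) : Fin (2 * i - 1 + 1)) : ℕ) : ℝ) with hv
  have l0 : XX i m L (Fin.last (2 * i - 1)) ⟨0, by omega⟩ = X ^ L + X ^ (L - 1) + 1 := by
    simp [XX]
  have l1 : XX i m L (Fin.last (2 * i - 1)) ⟨1, by omega⟩ = X ^ (L - 1) + C v := by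
    simp [XX, hv]
  have o0 : ∀ j : Fin (2 * i - 1 + 1), j ≠ Fin.last (2 * i - 1) →
      XX i m L j ⟨0, by omega⟩ = 1 := by
    intro j hj
    simp [XX, hj]
  have o1 : ∀ j : Fin (2 * i - 1 + 1), j ≠ Fin.last (2 * i - 1) →
      XX i m L j ⟨1, by omega⟩ = C ((j : ℕ) : ℝ) := by
    intro j hj
    simp [XX, hj]
  have hz : ∀ j : Fin (2 * i - 1 + 1), j ≠ ⟨0, by omega⟩ → ((j : ℕ) : ℝ) ≠ 0 := by
    intro j hj h
    apply hj
    have h' : (j : ℕ) = 0 := Nat.cast_eq_zero.1 h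
    exact Fin.ext h'
  have h0l : (⟨0, by omega⟩ : Fin (2 * i - 1 + 1)) ≠ Fin.last (2 * i - 1) := by
    intro h
    have := congrArg Fin.val h
    simp only [Fin.val_last] at this
    omega
  unfold dp
  by_cases hx : x = Fin.last (2 * i - 1)
  · have hy : y ≠ Fin.last (2 * i - 1) := fun h => hxy (hx.trans h.symm)
    have e : M2 h2 x y (XX i m L) = C ((y : ℕ) : ℝ) * X ^ L + C (((y : ℕ) : ℝ) - 1) * X ^ (L - 1) +
        C (((y : ℕ) : ℝ) - v) := by
      unfold M2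
      rw [hx, l0, l1, o0 y hy, o1 y hy, C_sub, C_sub, C_1]
      ring
    by_cases hy0 : y = ⟨0, by omega⟩
    · rw [if_pos (Or.inl ⟨hx, hy0⟩), e, hy0]
      simp only [Nat.cast_zero]
      exact P_deg2 hL (by norm_num)
    · rw [if_neg (by
        rintro (h | h)
        · exact hy0 h.2
        · exact hy h.2), if_pos (Or.inl hx), e]
      exact P_deg1 hL (hz y hy0)
  · by_cases hy : y = Fin.last (2 * i - 1)
    · have e : M2 h2 x y (XX i m L) = C (-((x : ℕ) : ℝ)) * X ^ L +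
          C (1 - ((x : ℕ) : ℝ)) * X ^ (L - 1) + C (v - ((x : ℕ) : ℝ)) := by
        unfold M2
        rw [hy, l0, l1, o0 x hx, o1 x hx, C_sub, C_sub, C_1, C_neg]
        ring
      by_cases hx0 : x = ⟨0, by omega⟩
      · rw [if_pos (Or.inr ⟨hx0, hy⟩), e, hx0]
        simp only [Nat.cast_zero, neg_zero]
        exact P_deg2 hL (by norm_num)
      · rw [if_neg (by
          rintro (h | h)
          · exact hx h.1
          · exact hx0 h.1), if_pos (Or.inr hy), e]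
        exact P_deg1 hL (neg_ne_zero.2 (hz x hx0))
    · have e : M2 h2 x y (XX i m L) = C (((y : ℕ) : ℝ) - ((x : ℕ) : ℝ)) := by
        unfold M2
        rw [o0 x hx, o1 x hx, o0 y hy, o1 y hy, C_sub]
        ring
      rw [if_neg (by
        rintro (h | h)
        · exact hx h.1
        · exact hy h.2), if_neg (by
        rintro (h | h)
        · exact hx h
        · exact hy h), e]
      refine ⟨by rw [natDegree_C], ?_⟩
      rw [coeff_C_zero]
      intro h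
      apply hxy
      apply Fin.ext
      have : ((y : ℕ) : ℝ) = ((x : ℕ) : ℝ) := by linarith
      exact_mod_cast this.symm

open Classical in
/-- The last point is paired with the point 0. -/
noncomputable def np (i : ℕ) (hi : 3 ≤ i) (σ : Equiv.Perm (Fin (2 * i - 1 + 1))) : ℕ :=
  if ∃ u : Fin i, (σ (ee i (by omega) (Sum.inl u)) = Fin.last (2 * i - 1) ∧
      σ (ee i (by omega) (Sum.inr u)) = ⟨0, by omega⟩) ∨
      (σ (ee i (by omega) (Sum.inl u)) = ⟨0, by omega⟩ ∧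
      σ (ee i (by omega) (Sum.inr u)) = Fin.last (2 * i - 1)) then 1 else 0

lemma sum_dp (hi : 3 ≤ i) (L : ℕ) (hL : 2 ≤ L) (σ : Equiv.Perm (Fin (2 * i - 1 + 1))) :
    ∑ u : Fin i, dp i L hi (σ (ee i (by omega) (Sum.inl u))) (σ (ee i (by omega) (Sum.inr u))) +
      np i hi σ = L := by
  classical
  have hi1 : 1 ≤ i := by omega
  have hinj : ∀ s t, σ (ee i hi1 s) = σ (ee i hi1 t) → s = t := fun s t h =>
    (ee i hi1).injective (σ.injective h)
  obtain ⟨u0, hu0⟩ : ∃ u0 : Fin i, σ (ee i hi1 (Sum.inl u0)) = Fin.last (2 * i - 1) ∨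
      σ (ee i hi1 (Sum.inr u0)) = Fin.last (2 * i - 1) := by
    rcases mem_or hi1 σ (Fin.last (2 * i - 1)) with ⟨k, hk⟩ | ⟨k, hk⟩
    · exact ⟨k, Or.inl hk⟩
    · exact ⟨k, Or.inr hk⟩
  have hother : ∀ u, u ≠ u0 → σ (ee i hi1 (Sum.inl u)) ≠ Fin.last (2 * i - 1) ∧
      σ (ee i hi1 (Sum.inr u)) ≠ Fin.last (2 * i - 1) := by
    intro u hu
    constructor
    · intro h
      rcases hu0 with h' | h'
      · exact hu (Sum.inl_injective (hinj _ _ (h.trans h'.symm)))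
      · exact Sum.inl_ne_inr (hinj _ _ (h.trans h'.symm))
    · intro h
      rcases hu0 with h' | h'
      · exact Sum.inr_ne_inl (hinj _ _ (h.trans h'.symm))
      · exact hu (Sum.inr_injective (hinj _ _ (h.trans h'.symm)))
  rw [Finset.sum_eq_single u0]
  · unfold dp np
    by_cases hp : (σ (ee i hi1 (Sum.inl u0)) = Fin.last (2 * i - 1) ∧
      σ (ee i hi1 (Sum.inr u0)) = ⟨0, by omega⟩) ∨
      (σ (ee i hi1 (Sum.inl u0)) = ⟨0, by omega⟩ ∧
      σ (ee i hi1 (Sum.inr u0)) = Fin.last (2 * i - 1))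
    · rw [if_pos hp, if_pos ⟨u0, hp⟩]
      omega
    · rw [if_neg hp, if_pos hu0, if_neg]
      · omega
      · rintro ⟨u, hu⟩
        by_cases huu : u = u0
        · rw [huu] at hu
          exact hp hu
        · obtain ⟨h3, h4⟩ := hother u huu
          rcases hu with h5 | h5
          · exact h3 h5.1
          · exact h4 h5.2
  · intro u _ hu
    obtain ⟨h3, h4⟩ := hother u hu
    unfold dp
    rw [if_neg, if_neg]
    · rintro (h | h)
      · exact h3 h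
      · exact h4 h
    · rintro (h | h)
      · exact h3 h.1
      · exact h4 h.2
  · intro h
    exact absurd (Finset.mem_univ u0) h

lemma ZD_deg (hi : 3 ≤ i) (h2 : 2 ≤ m) (L : ℕ) (hL : 2 ≤ L)
    (σ : Equiv.Perm (Fin (2 * i - 1 + 1))) :
    PD (ZD (by omega : 1 ≤ i) h2 σ (XX i m L) ^ 2) (2 * (L - np i hi σ)) := by
  have hi1 : 1 ≤ i := by omega
  have h := QD_prod Finset.univ (fun u : Fin i => M2 h2 (σ (ee i hi1 (Sum.inl u)))
    (σ (ee i hi1 (Sum.inr u))) (XX i m L)) (fun u => dp i L hi (σ (ee i hi1 (Sum.inl u)))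
    (σ (ee i hi1 (Sum.inr u)))) (fun u _ => M2_deg hi h2 L hL _ _ (fun h =>
      Sum.inl_ne_inr ((ee i hi1).injective (σ.injective h))))
  have hs := sum_dp hi L hL σ
  have e : ∑ u : Fin i, dp i L hi (σ (ee i hi1 (Sum.inl u))) (σ (ee i hi1 (Sum.inr u))) =
      L - np i hi σ := by omega
  rw [e] at h
  have h3 := PD.sq h.1 h.2
  rw [two_mul]
  exact h3

lemma exNp0 (hi : 3 ≤ i) : ∃ σ : Equiv.Perm (Fin (2 * i - 1 + 1)), np i hi σ = 0 := by
  have hi1 : 1 ≤ i := by omega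
  obtain ⟨σ, h0, h1, h2⟩ := exists_perm hi (Sum.inl ⟨0, by omega⟩) (Sum.inl ⟨1, by omega⟩)
    (Sum.inr ⟨1, by omega⟩) (by simp [Fin.ext_iff]) (by simp) (by simp)
  refine ⟨σ, ?_⟩
  unfold np
  rw [if_neg]
  have hinj : ∀ s t, σ (ee i hi1 s) = σ (ee i hi1 t) → s = t := fun s t h =>
    (ee i hi1).injective (σ.injective h)
  rintro ⟨u, hu | hu⟩
  · exact Sum.inr_ne_inl (hinj _ _ (hu.2.trans h1.symm))
  · exact Sum.inr_ne_inl (hinj _ _ (hu.2.trans h0.symm))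

lemma exNp1 (hi : 3 ≤ i) : ∃ σ : Equiv.Perm (Fin (2 * i - 1 + 1)), 1 ≤ np i hi σ := by
  obtain ⟨σ, h0, h1, h2⟩ := exists_perm hi (Sum.inl ⟨0, by omega⟩) (Sum.inr ⟨0, by omega⟩)
    (Sum.inr ⟨1, by omega⟩) (by simp) (by simp) (by simp [Fin.ext_iff])
  refine ⟨σ, ?_⟩
  unfold np
  rw [if_pos ⟨⟨0, by omega⟩, Or.inl ⟨h0, h1⟩⟩]

lemma exZs (hi : 3 ≤ i) : ∃ σ : Equiv.Perm (Fin (2 * i - 1 + 1)), 1 ≤ zs i hi σ := by
  obtain ⟨σ, hσ⟩ := exC (i := i) 2 hi
  refine ⟨σ, ?_⟩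
  have h1 := es_add 2 le_rfl hi σ
  have h3 := es_add 3 (by omega) hi σ
  by_contra hz
  have hz0 : zs i hi σ = 0 := by omega
  rw [hσ, hz0] at h1
  -- `xs = 2`, but each block contributes at most one
  have hx : xs i hi σ = 2 := by omega
  have b1 : ∀ f : Fin i → Fin (2 * i - 1 + 1), tx i hi f ≤ 1 := by
    intro f
    unfold tx
    split_ifs <;> omega
  have hi1 : 1 ≤ i := by omega
  rcases mem_or hi1 σ (Fin.last (2 * i - 1)) with h | h
  · obtain ⟨_, h5, _⟩ := ep_out 2 hi _ (not_mem_B hi1 σ h)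
    unfold xs at hx
    have := b1 (bA hi1 σ)
    rw [h5] at hx
    omega
  · have h' : Fin.last (2 * i - 1) ∉ Set.range (bA hi1 σ) := fun h5 => not_mem_B hi1 σ h5 h
    obtain ⟨_, h5, _⟩ := ep_out 2 hi _ h'
    unfold xs at hx
    have := b1 (bB hi1 σ)
    rw [h5] at hx
    omega

/-- The degree of `HH` along the curve. -/
lemma HH_deg (hi : 3 ≤ i) (him : i ≤ m) (h2 : 2 ≤ m) (L : ℕ) (hL : 2 ≤ L) (a b c d : ℕ) :
    PD (HH (by omega : 1 ≤ i) him h2 a b c d (XX i m L))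
      (a * (∑ σ, 2 * (L - np i hi σ)) + b * (2 * L) + (c + 1) * (∑ σ, es i L hi σ) +
        d * (2 * L)) := by
  classical
  have hi1 : 1 ≤ i := by omega
  have h1 : PD (F1 hi1 him (XX i m L)) (2 * L) := by
    obtain ⟨σ, hσ⟩ := exA (i := i) L hi
    exact PD.sum Finset.univ _ (es i L hi) (2 * L) (fun σ _ => DD_deg hi him L hL σ)
      (fun σ _ => by have := es_add L hL hi σ; omega) ⟨σ, Finset.mem_univ σ, hσ⟩
  have h3 : PD (F3 hi1 him (XX i m L)) (∑ σ, es i L hi σ) :=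
    PD.prod Finset.univ _ _ (fun σ _ => DD_deg hi him L hL σ)
  have h1' : PD (A1 hi1 h2 (XX i m L)) (2 * L) := by
    obtain ⟨σ, hσ⟩ := exNp0 hi
    exact PD.sum Finset.univ _ (fun σ => 2 * (L - np i hi σ)) (2 * L)
      (fun σ _ => ZD_deg hi h2 L hL σ) (fun σ _ => by omega) ⟨σ, Finset.mem_univ σ, by rw [hσ]; rfl⟩
  have h3' : PD (A3 hi1 h2 (XX i m L)) (∑ σ, 2 * (L - np i hi σ)) :=
    PD.prod Finset.univ _ _ (fun σ _ => ZD_deg hi h2 L hL σ)
  exact (((h3'.pow a).mul (h1'.pow b)).mul (h3.pow (c + 1))).mul (h1.pow d)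

lemma deg_inj2 {N n0 n2 n3 D D' L h1 h2 : ℕ} (hn0 : 1 ≤ n0) (hn3 : 1 ≤ n3)
    (hD : D + 2 * n2 + 2 * L * n3 = 2 * L * N) (hD' : D' + 2 * n0 = 2 * L * N)
    (hL : n0 * h1 < L) {r k r' k' : ℕ} (hr : r < h1) (hk : k < h2)
    (hr' : r' < h1) (hk' : k' < h2)
    (he : (r + 1) * D' + (N * (h1 - r)) * (2 * L) + (k + 1) * D + (N * (h2 - k)) * (2 * L) =
      (r' + 1) * D' + (N * (h1 - r')) * (2 * L) + (k' + 1) * D + (N * (h2 - k')) * (2 * L)) :
    r = r' ∧ k = k' := by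
  have e1 : (((r + 1) * D' + (N * (h1 - r)) * (2 * L) + (k + 1) * D +
      (N * (h2 - k)) * (2 * L) : ℕ) : ℤ) = (((r' + 1) * D' + (N * (h1 - r')) * (2 * L) +
      (k' + 1) * D + (N * (h2 - k')) * (2 * L) : ℕ) : ℤ) := congrArg (fun n : ℕ => (n : ℤ)) he
  push_cast [Nat.cast_sub hr.le, Nat.cast_sub hk.le, Nat.cast_sub hr'.le, Nat.cast_sub hk'.le] at e1
  have hDz : (D : ℤ) = 2 * L * N - 2 * n2 - 2 * L * n3 := by
    have : ((D + 2 * n2 + 2 * L * n3 : ℕ) : ℤ) = ((2 * L * N : ℕ) : ℤ) := congrArg _ hD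
    push_cast at this
    linarith
  have hDz' : (D' : ℤ) = 2 * L * N - 2 * n0 := by
    have : ((D' + 2 * n0 : ℕ) : ℤ) = ((2 * L * N : ℕ) : ℤ) := congrArg _ hD'
    push_cast at this
    linarith
  rw [hDz, hDz'] at e1
  have e2 : (n0 : ℤ) * ((r : ℤ) - r') = ((k' : ℤ) - k) * (n2 + L * n3) := by linarith
  have e3 : (k' : ℤ) - k = 0 := by
    by_contra hne
    have a1 : |(n0 : ℤ) * ((r : ℤ) - r')| < L := by
      rw [abs_mul]
      have b3 : |(n0 : ℤ)| = n0 := abs_of_nonneg (by positivity)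
      have b2 : |(r : ℤ) - r'| ≤ h1 := by
        rw [abs_le]
        constructor <;> omega
      rw [b3]
      have hL' : (n0 : ℤ) * h1 < L := by exact_mod_cast hL
      calc (n0 : ℤ) * |(r : ℤ) - r'| ≤ n0 * h1 := mul_le_mul_of_nonneg_left b2 (by positivity)
        _ < L := hL'
    rw [e2, abs_mul] at a1
    have b4 : 1 ≤ |(k' : ℤ) - k| := Int.one_le_abs hne
    have b5 : (L : ℤ) ≤ |(n2 : ℤ) + L * n3| := by
      rw [abs_of_nonneg (by positivity)]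
      have : (1 : ℤ) ≤ n3 := by exact_mod_cast hn3
      nlinarith [Int.natCast_nonneg L, Int.natCast_nonneg n2]
    have b6 : (1 : ℤ) * L ≤ |(k' : ℤ) - k| * |(n2 : ℤ) + L * n3| :=
      mul_le_mul b4 b5 (Int.natCast_nonneg L) (by positivity)
    linarith
  rw [e3, zero_mul] at e2
  have e4 : (r : ℤ) - r' = 0 := by
    rcases mul_eq_zero.1 e2 with h5 | h5
    · exfalso
      have : n0 = 0 := by exact_mod_cast h5
      omega
    · exact h5
  constructor <;> omega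

end Gen

end Y1H

open W7H Y1H in
theorem family2 {m i : ℕ} (hi : 3 ≤ i) (him : i ≤ m) :
    ∃ (N : ℕ) (P : Fin (2 * i - 1) → Fin m → ℂ), 0 < N ∧ ∀ h1 h2 : ℕ,
    ∃ G : Fin h1 → Fin h2 → ((Fin (2 * i - 1 + 1) → Fin m → ℂ) → ℂ),
      (∀ r k, G r k ∈ MP (2 * i - 1 + 1) m (2 * N * (h1 + 1) + 2 * N * (h2 + 1))) ∧
      (∀ r k (σ : Equiv.Perm (Fin (2 * i - 1 + 1))) p, G r k (fun j => p (σ j)) = G r k p) ∧
      (∀ r k, HWF (2 * i - 1 + 1) m
        ((2 * i * N * (h1 + 1)) • om m 2 + (4 * N * (h2 + 1)) • om m i) (G r k)) ∧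
      (∀ r k p (u v : Fin (2 * i - 1 + 1)), u ≠ v → p u = p v → G r k p = 0) ∧
      LinearIndependent ℂ (fun rk : Fin h1 × Fin h2 => fun q : Fin m → ℂ =>
        G rk.1 rk.2 (Fin.snoc (α := fun _ => Fin m → ℂ) P q)) := by
  classical
  have hi1 : 1 ≤ i := by omega
  have h2m : 2 ≤ m := by omega
  set N := Fintype.card (Equiv.Perm (Fin (2 * i - 1 + 1))) with hNdef
  have hN : 0 < N := Fintype.card_pos
  refine ⟨N, fun j l => ((j : ℕ) : ℂ) ^ (l : ℕ), hN, ?_⟩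
  intro h1 h2
  have key : ∀ {h : ℕ} (r : Fin h), ((r : ℕ) + 1) * N + N * (h - (r : ℕ)) = N * (h + 1) := by
    intro h r
    have := r.isLt
    rw [mul_comm ((r : ℕ) + 1) N, ← Nat.mul_add]
    congr 1
    omega
  refine ⟨fun r k => HH hi1 him h2m ((r : ℕ) + 1) (N * (h1 - (r : ℕ))) k (N * (h2 - (k : ℕ))),
    ?_, fun r k σ p => HH_perm hi1 him h2m _ _ _ _ σ p, ?_,
    fun r k p u v huv hp => HH_diag hi him h2m _ _ _ _ p u v huv hp, ?_⟩
  · intro r k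
    have h := HH_mem hi1 him h2m ((r : ℕ) + 1) (N * (h1 - (r : ℕ))) k (N * (h2 - (k : ℕ)))
    convert h using 2
    have k1 := key r
    have k2 := key k
    calc 2 * N * (h1 + 1) + 2 * N * (h2 + 1) = 2 * (N * (h1 + 1)) + 2 * (N * (h2 + 1)) := by ring
      _ = 2 * (((r : ℕ) + 1) * N + N * (h1 - (r : ℕ))) + 2 * (((k : ℕ) + 1) * N +
          N * (h2 - (k : ℕ))) := by rw [k1, k2]
      _ = _ := by ring
  · intro r k
    have h := HH_act hi1 him h2m ((r : ℕ) + 1) (N * (h1 - (r : ℕ))) k (N * (h2 - (k : ℕ)))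
      (N * (h1 + 1)) (N * (h2 + 1)) (key r) (key k)
    have e1 : 2 * i * N * (h1 + 1) = 2 * i * (N * (h1 + 1)) := by ring
    have e2 : 4 * N * (h2 + 1) = 4 * (N * (h2 + 1)) := by ring
    rw [e1, e2]
    exact h
  rw [Fintype.linearIndependent_iff]
  intro g hg
  set n0 := ∑ σ, np i hi σ with hn0
  set n2 := ∑ σ, xs i hi σ with hn2
  set n3 := ∑ σ, zs i hi σ with hn3
  set L := n0 * h1 + 2 with hLdef
  have hL2 : 2 ≤ L := by omega
  have hD : (∑ σ, es i L hi σ) + 2 * n2 + 2 * L * n3 = 2 * L * N := by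
    rw [hn2, hn3, Finset.mul_sum, Finset.mul_sum, ← Finset.sum_add_distrib,
      ← Finset.sum_add_distrib, Finset.sum_congr rfl (fun σ _ => es_add L hL2 hi σ),
      Finset.sum_const, Finset.card_univ, smul_eq_mul, mul_comm]
  have hnp : ∀ σ, np i hi σ ≤ 1 := by
    intro σ
    unfold np
    split_ifs <;> omega
  have hD' : (∑ σ, 2 * (L - np i hi σ)) + 2 * n0 = 2 * L * N := by
    rw [hn0, Finset.mul_sum, ← Finset.sum_add_distrib,
      Finset.sum_congr rfl (fun σ _ => (by have := hnp σ; omega :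
        2 * (L - np i hi σ) + 2 * np i hi σ = 2 * L)),
      Finset.sum_const, Finset.card_univ, smul_eq_mul, mul_comm]
  have hn0' : 1 ≤ n0 := by
    obtain ⟨σ, hσ⟩ := exNp1 hi
    exact hσ.trans (Finset.single_le_sum (f := np i hi) (fun _ _ => Nat.zero_le _)
      (Finset.mem_univ σ))
  have hn3' : 1 ≤ n3 := by
    obtain ⟨σ, hσ⟩ := exZs hi
    exact hσ.trans (Finset.single_le_sum (f := zs i hi) (fun _ _ => Nat.zero_le _)
      (Finset.mem_univ σ))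
  refine indep (fun rk : Fin h1 × Fin h2 =>
      HH hi1 him h2m ((rk.1 : ℕ) + 1) (N * (h1 - (rk.1 : ℕ))) rk.2 (N * (h2 - (rk.2 : ℕ)))
        (XX i m L))
    (fun rk => ((rk.1 : ℕ) + 1) * (∑ σ, 2 * (L - np i hi σ)) + (N * (h1 - (rk.1 : ℕ))) * (2 * L) +
      ((rk.2 : ℕ) + 1) * (∑ σ, es i L hi σ) + (N * (h2 - (rk.2 : ℕ))) * (2 * L))
    (fun rk => HH_deg hi him h2m L hL2 _ _ _ _) ?_ g ?_
  · intro x y hxy
    have := deg_inj2 hn0' hn3' hD hD' (h1 := h1) (h2 := h2) (by omega) x.1.isLt x.2.isLt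
      y.1.isLt y.2.isLt hxy
    exact Prod.ext (Fin.ext this.1) (Fin.ext this.2)
  · intro t
    have h3 := congrFun hg (fun l => t ^ L * (0 : ℂ) ^ (l : ℕ) + t ^ (L - 1) * (1 : ℂ) ^ (l : ℕ) +
      (((Fin.last (2 * i - 1) : Fin (2 * i - 1 + 1)) : ℕ) : ℂ) ^ (l : ℕ))
    simp only [Finset.sum_apply, Pi.smul_apply, smul_eq_mul, Pi.zero_apply] at h3
    rw [← h3]
    refine Finset.sum_congr rfl (fun rk _ => ?_)
    congr 1
    have hφ := map_HH ((Polynomial.evalRingHom t).comp (Polynomial.mapRingHom (algebraMap ℝ ℂ)))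
      hi1 him h2m ((rk.1 : ℕ) + 1) (N * (h1 - (rk.1 : ℕ))) rk.2 (N * (h2 - (rk.2 : ℕ)))
      (XX i m L)
    simp only [RingHom.comp_apply, Polynomial.coe_mapRingHom, Polynomial.coe_evalRingHom] at hφ
    rw [hφ]
    congr 1
    funext j l
    refine Fin.lastCases ?_ (fun j => ?_) j
    · rw [Fin.snoc_last]
      simp [XX]
    · rw [Fin.snoc_castSucc]
      have hne : Fin.castSucc j ≠ Fin.last (2 * i - 1) := Fin.castSucc_ne_last j
      simp [XX, hne]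

end Vale.Agent.P181.FR
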