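import Vale.Agent.P181.R2.H959.WDefs
import Vale.Agent.P181.R2.H9.FR3
import Mathlib.LinearAlgebra.Vandermonde
import Mathlib.GroupTheory.GroupAction.MultipleTransitivity

/-! P181 row W7 (`family`): brackets of points of the moment curve. -/

set_option autoImplicit false

open scoped TensorProduct

namespace Vale.Agent.P181.FR

open Vale.Agent.P181 Vale.Agent.P181.H280

namespace W7H

/-- Polynomials of degree at most `d` with positive coefficient of degree `d`. -/
def PD (f : Polynomial ℝ) (d : ℕ) : Prop := f.natDegree ≤ d ∧ 0 < f.coeff d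

lemma PD.mul {f g : Polynomial ℝ} {d e : ℕ} (hf : PD f d) (hg : PD g e) : PD (f * g) (d + e) := by
  refine ⟨(Polynomial.natDegree_mul_le).trans (Nat.add_le_add hf.1 hg.1), ?_⟩
  rw [Polynomial.coeff_mul_add_eq_of_natDegree_le hf.1 hg.1]
  exact mul_pos hf.2 hg.2

lemma PD.one : PD (1 : Polynomial ℝ) 0 := by
  refine ⟨by simp, by simp⟩

lemma PD.pow {f : Polynomial ℝ} {d : ℕ} (hf : PD f d) (n : ℕ) : PD (f ^ n) (n * d) := by
  induction n with
  | zero => simpa using PD.one
  | succ n ih =>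
    rw [pow_succ, Nat.succ_mul]
    exact ih.mul hf

lemma PD.prod {ι : Type} (T : Finset ι) (f : ι → Polynomial ℝ) (d : ι → ℕ)
    (h : ∀ s ∈ T, PD (f s) (d s)) : PD (∏ s ∈ T, f s) (∑ s ∈ T, d s) := by
  classical
  induction T using Finset.induction_on with
  | empty => simpa using PD.one
  | insert a T ha ih =>
    rw [Finset.prod_insert ha, Finset.sum_insert ha]
    exact (h a (Finset.mem_insert_self a T)).mul
      (ih (fun s hs => h s (Finset.mem_insert_of_mem hs)))

lemma PD.sum {ι : Type} (T : Finset ι) (f : ι → Polynomial ℝ) (d : ι → ℕ) (M : ℕ)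
    (h : ∀ s ∈ T, PD (f s) (d s)) (hM : ∀ s ∈ T, d s ≤ M) (hex : ∃ s ∈ T, d s = M) :
    PD (∑ s ∈ T, f s) M := by
  constructor
  · exact Polynomial.natDegree_sum_le_of_forall_le _ _ (fun s hs => (h s hs).1.trans (hM s hs))
  · rw [Polynomial.finsetSum_coeff]
    obtain ⟨s, hs, hsM⟩ := hex
    refine Finset.sum_pos' (fun s hs => ?_) ⟨s, hs, ?_⟩
    · rcases (hM s hs).lt_or_eq with h1 | h1
      · rw [Polynomial.coeff_eq_zero_of_natDegree_lt ((h s hs).1.trans_lt h1)]
      · rw [← h1]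
        exact (h s hs).2.le
    · rw [← hsM]
      exact (h s hs).2

lemma PD.natDegree {f : Polynomial ℝ} {d : ℕ} (hf : PD f d) : f.natDegree = d :=
  le_antisymm hf.1 (Polynomial.le_natDegree_of_ne_zero hf.2.ne')

lemma PD.sq {f : Polynomial ℝ} {d : ℕ} (h1 : f.natDegree ≤ d) (h2 : f.coeff d ≠ 0) :
    PD (f ^ 2) (d + d) := by
  refine ⟨?_, ?_⟩
  · rw [pow_two]
    exact (Polynomial.natDegree_mul_le).trans (Nat.add_le_add h1 h1)
  · rw [pow_two, Polynomial.coeff_mul_add_eq_of_natDegree_le h1 h1]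
    exact mul_self_pos.2 h2

/-- A finite family of polynomials with different degrees is linearly independent as functions. -/
lemma indep {ι : Type} [Fintype ι] (f : ι → Polynomial ℝ) (d : ι → ℕ) (h : ∀ s, PD (f s) (d s))
    (hd : Function.Injective d) (c : ι → ℂ)
    (hc : ∀ t : ℂ, ∑ s, c s * ((f s).map (algebraMap ℝ ℂ)).eval t = 0) : ∀ s, c s = 0 := by
  classical
  by_contra hne
  obtain ⟨s0, hs0⟩ := not_forall.1 hne
  have hpol : ∑ s, Polynomial.C (c s) * (f s).map (algebraMap ℝ ℂ) = 0 := by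
    apply Polynomial.funext
    intro t
    rw [Polynomial.eval_finsetSum]
    simpa using hc t
  obtain ⟨s1, hs1, hmax⟩ := Finset.exists_max_image (Finset.univ.filter (fun s => c s ≠ 0)) d
    ⟨s0, by simpa using hs0⟩
  have hs1' : c s1 ≠ 0 := by simpa using hs1
  have hco := congrArg (fun p => Polynomial.coeff p (d s1)) hpol
  simp only [Polynomial.finsetSum_coeff, Polynomial.coeff_C_mul, Polynomial.coeff_map,
    Polynomial.coeff_zero] at hco
  rw [Finset.sum_eq_single s1] at hco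
  · rcases mul_eq_zero.1 hco with h3 | h3
    · exact hs1' h3
    · have : ((f s1).coeff (d s1) : ℝ) = 0 := by
        have h4 := (algebraMap ℝ ℂ).injective (h3.trans (map_zero (algebraMap ℝ ℂ)).symm)
        exact h4
      exact (h s1).2.ne' this
  · intro s _ hs
    by_cases hcs : c s = 0
    · rw [hcs, zero_mul]
    · have h5 := hmax s (by simpa using hcs)
      have h6 : d s < d s1 := lt_of_le_of_ne h5 (fun h => hs (hd h))
      rw [Polynomial.coeff_eq_zero_of_natDegree_lt ((h s).1.trans_lt h6), map_zero, mul_zero]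
  · intro h
    exact absurd (Finset.mem_univ s1) h


section Gen

variable {i m : ℕ}

/-- The two blocks of the `2i` points. -/
def ee (i : ℕ) (hi : 1 ≤ i) : Fin i ⊕ Fin i ≃ Fin (2 * i - 1 + 1) :=
  finSumFinEquiv.trans (finCongr (by omega))

section Ring

variable {R S : Type} [CommRing R] [CommRing S]

/-- The bracket of `i` points. -/
noncomputable def Br (him : i ≤ m) (f : Fin i → Fin (2 * i - 1 + 1))
    (p : Fin (2 * i - 1 + 1) → Fin m → R) : R :=
  Matrix.det (Matrix.of fun k l : Fin i => p (f k) (Fin.castLE him l))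

/-- The product of two complementary brackets. -/
noncomputable def DD (hi : 1 ≤ i) (him : i ≤ m) (σ : Equiv.Perm (Fin (2 * i - 1 + 1)))
    (p : Fin (2 * i - 1 + 1) → Fin m → R) : R :=
  Br him (fun k => σ (ee i hi (Sum.inl k))) p * Br him (fun k => σ (ee i hi (Sum.inr k))) p

noncomputable def F1 (hi : 1 ≤ i) (him : i ≤ m) (p : Fin (2 * i - 1 + 1) → Fin m → R) : R :=
  ∑ σ : Equiv.Perm (Fin (2 * i - 1 + 1)), DD hi him σ p ^ 2

noncomputable def F2 (hi : 1 ≤ i) (him : i ≤ m) (p : Fin (2 * i - 1 + 1) → Fin m → R) : R :=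
  ∑ σ : Equiv.Perm (Fin (2 * i - 1 + 1)), ∏ τ ∈ Finset.univ.erase σ, DD hi him τ p ^ 2

noncomputable def F3 (hi : 1 ≤ i) (him : i ≤ m) (p : Fin (2 * i - 1 + 1) → Fin m → R) : R :=
  ∏ σ : Equiv.Perm (Fin (2 * i - 1 + 1)), DD hi him σ p ^ 2

noncomputable def GG (hi : 1 ≤ i) (him : i ≤ m) (a r k : ℕ)
    (p : Fin (2 * i - 1 + 1) → Fin m → R) : R :=
  F1 hi him p ^ a * F2 hi him p ^ r * F3 hi him p ^ (k + 1)

lemma map_Br (φ : R →+* S) (him : i ≤ m) (f : Fin i → Fin (2 * i - 1 + 1))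
    (p : Fin (2 * i - 1 + 1) → Fin m → R) :
    φ (Br him f p) = Br him f (fun j l => φ (p j l)) := by
  unfold Br
  rw [RingHom.map_det]
  rfl

lemma map_GG (φ : R →+* S) (hi : 1 ≤ i) (him : i ≤ m) (a r k : ℕ)
    (p : Fin (2 * i - 1 + 1) → Fin m → R) :
    φ (GG hi him a r k p) = GG hi him a r k (fun j l => φ (p j l)) := by
  simp only [GG, F1, F2, F3, DD, map_mul, map_pow, map_sum, map_prod, map_Br]

lemma DD_perm (hi : 1 ≤ i) (him : i ≤ m) (σ τ : Equiv.Perm (Fin (2 * i - 1 + 1)))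
    (p : Fin (2 * i - 1 + 1) → Fin m → R) :
    DD hi him σ (fun j => p (τ j)) = DD hi him (τ * σ) p := rfl

lemma GG_perm (hi : 1 ≤ i) (him : i ≤ m) (a r k : ℕ) (τ : Equiv.Perm (Fin (2 * i - 1 + 1)))
    (p : Fin (2 * i - 1 + 1) → Fin m → R) :
    GG hi him a r k (fun j => p (τ j)) = GG hi him a r k p := by
  have h1 : F1 hi him (fun j => p (τ j)) = F1 hi him p := by
    unfold F1
    simp only [DD_perm]
    exact Equiv.sum_comp (Equiv.mulLeft τ) (fun σ => DD hi him σ p ^ 2)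
  have h3 : F3 hi him (fun j => p (τ j)) = F3 hi him p := by
    unfold F3
    simp only [DD_perm]
    exact Equiv.prod_comp (Equiv.mulLeft τ) (fun σ => DD hi him σ p ^ 2)
  have h2 : F2 hi him (fun j => p (τ j)) = F2 hi him p := by
    unfold F2
    simp only [DD_perm]
    rw [← Equiv.sum_comp (Equiv.mulLeft τ)
      (fun σ => ∏ ρ ∈ Finset.univ.erase σ, DD hi him ρ p ^ 2)]
    refine Finset.sum_congr rfl (fun σ _ => ?_)
    refine Finset.prod_equiv (Equiv.mulLeft τ) (fun ρ => ?_) (fun ρ _ => rfl)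
    simp
  unfold GG
  rw [h1, h2, h3]

lemma GG_diag (hi : 3 ≤ i) (him : i ≤ m) (a r k : ℕ)
    (p : Fin (2 * i - 1 + 1) → Fin m → R) (u v : Fin (2 * i - 1 + 1)) (huv : u ≠ v)
    (h : p u = p v) : GG (by omega : 1 ≤ i) him a r k p = 0 := by
  have hi1 : 1 ≤ i := by omega
  have h01 : (⟨0, by omega⟩ : Fin i) ≠ ⟨1, by omega⟩ := by simp [Fin.ext_iff]
  obtain ⟨σ, hσ⟩ := Equiv.Perm.exists_extending_pair
    (![ee i hi1 (Sum.inl ⟨0, by omega⟩), ee i hi1 (Sum.inl ⟨1, by omega⟩)] : Fin 2 → _)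
    (![u, v] : Fin 2 → _)
    (by
      intro x y hxy
      fin_cases x <;> fin_cases y <;> simp_all [Fin.ext_iff])
    (by
      intro x y hxy
      fin_cases x <;> fin_cases y <;> simp_all)
  have e0 := hσ 0
  have e1 := hσ 1
  simp only [Matrix.cons_val_zero, Matrix.cons_val_one] at e0 e1
  have hB : Br him (fun k => σ (ee i hi1 (Sum.inl k))) p = 0 := by
    unfold Br
    apply Matrix.det_zero_of_row_eq h01
    funext l
    simp only [Matrix.of_apply]
    rw [e0, e1, h]
  have h3 : F3 hi1 him p = 0 := by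
    unfold F3
    apply Finset.prod_eq_zero (Finset.mem_univ σ)
    unfold DD
    rw [hB, zero_mul, zero_pow two_ne_zero]
  unfold GG
  rw [h3, zero_pow (Nat.succ_ne_zero k), mul_zero]

end Ring

/-! ### Homogeneity -/

lemma MP_pow' {B m a : ℕ} {G : (Fin B → Fin m → ℂ) → ℂ} (hG : G ∈ MP B m a) (n : ℕ) :
    G ^ n ∈ MP B m (n * a) := by
  induction n with
  | zero =>
    rw [pow_zero, Nat.zero_mul]
    apply Submodule.subset_span
    exact ⟨fun _ => 1, fun _ => MvPolynomial.isHomogeneous_one _ _, by funext p; simp⟩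
  | succ n ih =>
    rw [pow_succ, Nat.succ_mul]
    exact MP_mul ih hG

lemma MP_prod {B m a : ℕ} {ι : Type} (T : Finset ι) (G : ι → (Fin B → Fin m → ℂ) → ℂ)
    (hG : ∀ s ∈ T, G s ∈ MP B m a) : (∏ s ∈ T, G s) ∈ MP B m (T.card * a) := by
  classical
  induction T using Finset.induction_on with
  | empty =>
    rw [Finset.prod_empty, Finset.card_empty, Nat.zero_mul]
    apply Submodule.subset_span
    exact ⟨fun _ => 1, fun _ => MvPolynomial.isHomogeneous_one _ _, by funext p; simp⟩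
  | insert x T hx ih =>
    rw [Finset.prod_insert hx, Finset.card_insert_of_notMem hx, Nat.succ_mul, Nat.add_comm]
    exact MP_mul (hG x (Finset.mem_insert_self x T))
      (ih (fun s hs => hG s (Finset.mem_insert_of_mem hs)))

lemma DD_mem (hi : 1 ≤ i) (him : i ≤ m) (σ : Equiv.Perm (Fin (2 * i - 1 + 1))) :
    (DD hi him σ : (Fin (2 * i - 1 + 1) → Fin m → ℂ) → ℂ) ∈ MP (2 * i - 1 + 1) m 1 := by
  classical
  have h : (DD hi him σ : (Fin (2 * i - 1 + 1) → Fin m → ℂ) → ℂ) =
      ∑ π : Equiv.Perm (Fin i), ∑ π' : Equiv.Perm (Fin i),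
        (((Equiv.Perm.sign π : ℤ) : ℂ) * ((Equiv.Perm.sign π' : ℤ) : ℂ)) •
        (fun p : Fin (2 * i - 1 + 1) → Fin m → ℂ => ∏ j, p j
          (Sum.elim (fun k => Fin.castLE him (π k)) (fun k => Fin.castLE him (π' k))
            ((ee i hi).symm (σ.symm j)))) := by
    funext p
    unfold DD Br
    rw [← Matrix.det_transpose (Matrix.of fun k l : Fin i => p (σ (ee i hi (Sum.inl k))) _),
      ← Matrix.det_transpose (Matrix.of fun k l : Fin i => p (σ (ee i hi (Sum.inr k))) _),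
      Matrix.det_apply', Matrix.det_apply', Finset.sum_mul_sum, Finset.sum_apply]
    refine Finset.sum_congr rfl (fun π _ => ?_)
    rw [Finset.sum_apply]
    refine Finset.sum_congr rfl (fun π' _ => ?_)
    simp only [Matrix.transpose_apply, Matrix.of_apply, Pi.smul_apply, smul_eq_mul]
    rw [← Equiv.prod_comp ((ee i hi).trans σ) (fun j => p j _), Fintype.prod_sum_type]
    simp only [Equiv.trans_apply, Equiv.symm_apply_apply, Sum.elim_inl, Sum.elim_inr]
    ring
  rw [h]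
  exact Submodule.sum_mem _ (fun π _ => Submodule.sum_mem _ (fun π' _ =>
    Submodule.smul_mem _ _ (MP_coord _)))

lemma GG_mem (hi : 1 ≤ i) (him : i ≤ m) (a r k c : ℕ)
    (hc : a + (Fintype.card (Equiv.Perm (Fin (2 * i - 1 + 1))) - 1) * r +
      Fintype.card (Equiv.Perm (Fin (2 * i - 1 + 1))) * (k + 1) = c) :
    (GG hi him a r k : (Fin (2 * i - 1 + 1) → Fin m → ℂ) → ℂ) ∈ MP (2 * i - 1 + 1) m (2 * c) := by
  classical
  have hD : ∀ σ : Equiv.Perm (Fin (2 * i - 1 + 1)),
      (DD hi him σ : (Fin (2 * i - 1 + 1) → Fin m → ℂ) → ℂ) ^ 2 ∈ MP (2 * i - 1 + 1) m 2 := by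
    intro σ
    simpa using MP_pow' (DD_mem hi him σ) 2
  have h1 : (F1 hi him : (Fin (2 * i - 1 + 1) → Fin m → ℂ) → ℂ) ∈ MP (2 * i - 1 + 1) m 2 := by
    have e : (F1 hi him : (Fin (2 * i - 1 + 1) → Fin m → ℂ) → ℂ) =
        ∑ σ : Equiv.Perm (Fin (2 * i - 1 + 1)), (DD hi him σ) ^ 2 := by
      funext p
      simp only [F1, Finset.sum_apply, Pi.pow_apply]
    rw [e]
    exact Submodule.sum_mem _ (fun σ _ => hD σ)
  have h2 : (F2 hi him : (Fin (2 * i - 1 + 1) → Fin m → ℂ) → ℂ) ∈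
      MP (2 * i - 1 + 1) m ((Fintype.card (Equiv.Perm (Fin (2 * i - 1 + 1))) - 1) * 2) := by
    have e : (F2 hi him : (Fin (2 * i - 1 + 1) → Fin m → ℂ) → ℂ) =
        ∑ σ : Equiv.Perm (Fin (2 * i - 1 + 1)), ∏ τ ∈ Finset.univ.erase σ, (DD hi him τ) ^ 2 := by
      funext p
      simp only [F2, Finset.sum_apply, Finset.prod_apply, Pi.pow_apply]
    rw [e]
    refine Submodule.sum_mem _ (fun σ _ => ?_)
    have h := MP_prod (Finset.univ.erase σ)
      (fun τ => (DD hi him τ : (Fin (2 * i - 1 + 1) → Fin m → ℂ) → ℂ) ^ 2) (fun τ _ => hD τ)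
    rwa [Finset.card_erase_of_mem (Finset.mem_univ σ), Finset.card_univ] at h
  have h3 : (F3 hi him : (Fin (2 * i - 1 + 1) → Fin m → ℂ) → ℂ) ∈
      MP (2 * i - 1 + 1) m (Fintype.card (Equiv.Perm (Fin (2 * i - 1 + 1))) * 2) := by
    have e : (F3 hi him : (Fin (2 * i - 1 + 1) → Fin m → ℂ) → ℂ) =
        ∏ σ : Equiv.Perm (Fin (2 * i - 1 + 1)), (DD hi him σ) ^ 2 := by
      funext p
      simp only [F3, Finset.prod_apply, Pi.pow_apply]
    rw [e]
    have h := MP_prod Finset.univ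
      (fun τ => (DD hi him τ : (Fin (2 * i - 1 + 1) → Fin m → ℂ) → ℂ) ^ 2) (fun τ _ => hD τ)
    rwa [Finset.card_univ] at h
  have e : (GG hi him a r k : (Fin (2 * i - 1 + 1) → Fin m → ℂ) → ℂ) =
      (F1 hi him) ^ a * (F2 hi him) ^ r * (F3 hi him) ^ (k + 1) := by
    funext p
    simp only [GG, Pi.mul_apply, Pi.pow_apply]
  rw [e]
  have h := MP_mul (MP_mul (MP_pow' h1 a) (MP_pow' h2 r)) (MP_pow' h3 (k + 1))
  convert h using 1
  rw [← hc]
  ring

/-! ### Weights -/

/-- The weight character. -/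
noncomputable def ch (him : i ≤ m) (g : Matrix (Fin m) (Fin m) ℂ) : ℂ :=
  ∏ l : Fin i, g (Fin.castLE him l) (Fin.castLE him l)

lemma ch_om (him : i ≤ m) (g : Matrix (Fin m) (Fin m) ℂ) (n : ℕ) :
    ∏ j, g j j ^ ((n • om m i) j) = ch him g ^ n := by
  classical
  have h1 : ∀ j : Fin m, g j j ^ ((n • om m i) j) = (if (j : ℕ) < i then g j j else 1) ^ n := by
    intro j
    simp only [Pi.smul_apply, om, smul_eq_mul]
    split_ifs <;> simp
  rw [Finset.prod_congr rfl (fun j _ => h1 j), Finset.prod_pow]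
  congr 1
  unfold ch
  rw [← Finset.prod_filter]
  refine (Finset.prod_bij (fun (l : Fin i) _ => Fin.castLE him l) ?_ ?_ ?_ ?_).symm
  · intro l _
    simp
  · intro l _ l' _ h
    exact Fin.castLE_injective him h
  · intro j hj
    have hj' : (j : ℕ) < i := by simpa using hj
    exact ⟨⟨j, hj'⟩, Finset.mem_univ _, Fin.ext rfl⟩
  · intro l _
    rfl

lemma Br_act (him : i ≤ m) (f : Fin i → Fin (2 * i - 1 + 1)) (g : Matrix (Fin m) (Fin m) ℂ)
    (hg : IsBorel g) (p : Fin (2 * i - 1 + 1) → Fin m → ℂ) :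
    Br him f (fun j => Matrix.vecMul (p j) g) = ch him g * Br him f p := by
  classical
  have e : (Matrix.of fun k l : Fin i => Matrix.vecMul (p (f k)) g (Fin.castLE him l)) =
      (Matrix.of fun k l : Fin i => p (f k) (Fin.castLE him l)) *
      (Matrix.of fun l l' : Fin i => g (Fin.castLE him l) (Fin.castLE him l')) := by
    ext k l
    rw [Matrix.mul_apply]
    simp only [Matrix.of_apply, Matrix.vecMul, dotProduct]
    have hz : ∀ x : Fin m, x ∉ Finset.univ.filter (fun x : Fin m => (x : ℕ) < i) →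
        p (f k) x * g x (Fin.castLE him l) = 0 := by
      intro x hx
      have hx' : i ≤ (x : ℕ) := by simpa using hx
      rw [hg.1 x (Fin.castLE him l) (by
        rw [Fin.lt_def]
        simp only [Fin.val_castLE]
        omega), mul_zero]
    rw [← Finset.sum_subset (Finset.subset_univ (Finset.univ.filter
      (fun x : Fin m => (x : ℕ) < i))) (fun x _ hx => hz x hx)]
    refine (Finset.sum_bij (fun (l : Fin i) _ => Fin.castLE him l) ?_ ?_ ?_ ?_).symm
    · intro l _
      simp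
    · intro l _ l' _ h
      exact Fin.castLE_injective him h
    · intro j hj
      have hj' : (j : ℕ) < i := by simpa using hj
      exact ⟨⟨j, hj'⟩, Finset.mem_univ _, Fin.ext rfl⟩
    · intro l _
      rfl
  unfold Br
  rw [e, Matrix.det_mul, mul_comm]
  congr 1
  have ht : (Matrix.of fun l l' : Fin i =>
      g (Fin.castLE him l) (Fin.castLE him l')).BlockTriangular id := by
    intro a b hab
    simp only [Matrix.of_apply]
    exact hg.1 _ _ (by
      rw [Fin.lt_def]
      simp only [Fin.val_castLE]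
      exact hab)
  rw [Matrix.det_of_isUpperTriangular ht]
  rfl

lemma GG_act (hi : 1 ≤ i) (him : i ≤ m) (a r k c : ℕ)
    (hc : a + (Fintype.card (Equiv.Perm (Fin (2 * i - 1 + 1))) - 1) * r +
      Fintype.card (Equiv.Perm (Fin (2 * i - 1 + 1))) * (k + 1) = c) :
    HWF (2 * i - 1 + 1) m ((4 * c) • om m i) (GG hi him a r k) := by
  classical
  intro g hg p
  rw [ch_om him g]
  have hD : ∀ σ : Equiv.Perm (Fin (2 * i - 1 + 1)),
      DD hi him σ (fun j => Matrix.vecMul (p j) g) ^ 2 = ch him g ^ 4 * DD hi him σ p ^ 2 := by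
    intro σ
    unfold DD
    rw [Br_act him _ g hg, Br_act him _ g hg]
    ring
  have h1 : F1 hi him (fun j => Matrix.vecMul (p j) g) = ch him g ^ 4 * F1 hi him p := by
    unfold F1
    rw [Finset.mul_sum]
    exact Finset.sum_congr rfl (fun σ _ => hD σ)
  have h3 : F3 hi him (fun j => Matrix.vecMul (p j) g) =
      (ch him g ^ 4) ^ Fintype.card (Equiv.Perm (Fin (2 * i - 1 + 1))) * F3 hi him p := by
    unfold F3
    rw [Finset.prod_congr rfl (fun σ _ => hD σ), Finset.prod_mul_distrib, Finset.prod_const,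
      Finset.card_univ]
  have h2 : F2 hi him (fun j => Matrix.vecMul (p j) g) =
      (ch him g ^ 4) ^ (Fintype.card (Equiv.Perm (Fin (2 * i - 1 + 1))) - 1) * F2 hi him p := by
    unfold F2
    rw [Finset.mul_sum]
    refine Finset.sum_congr rfl (fun σ _ => ?_)
    rw [Finset.prod_congr rfl (fun σ _ => hD σ), Finset.prod_mul_distrib, Finset.prod_const,
      Finset.card_erase_of_mem (Finset.mem_univ σ), Finset.card_univ]
  unfold GG
  rw [h1, h2, h3, ← hc]
  ring_nf


/-! ### The curve -/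

open Polynomial in
/-- The points: the moment curve, and a curve for the last point. -/
noncomputable def XX (i m L : ℕ) (j : Fin (2 * i - 1 + 1)) (l : Fin m) : Polynomial ℝ :=
  if j = Fin.last (2 * i - 1) then
    X ^ L * C ((0 : ℝ) ^ (l : ℕ)) + X ^ (L - 1) * C ((1 : ℝ) ^ (l : ℕ)) +
      C ((((Fin.last (2 * i - 1) : Fin (2 * i - 1 + 1)) : ℕ) : ℝ) ^ (l : ℕ))
  else C (((j : ℕ) : ℝ) ^ (l : ℕ))

open Classical in
/-- The degree of a bracket. -/
noncomputable def ep (i L : ℕ) (hi : 3 ≤ i) (f : Fin i → Fin (2 * i - 1 + 1)) : ℕ :=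
  if Fin.last (2 * i - 1) ∈ Set.range f then
    (if (⟨0, by omega⟩ : Fin (2 * i - 1 + 1)) ∈ Set.range f then
      (if (⟨1, by omega⟩ : Fin (2 * i - 1 + 1)) ∈ Set.range f then 0 else L - 1) else L) else 0

open Polynomial in
lemma Br_deg (hi : 3 ≤ i) (him : i ≤ m) (L : ℕ) (hL : 2 ≤ L) (f : Fin i → Fin (2 * i - 1 + 1))
    (hf : Function.Injective f) :
    (Br him f (XX i m L)).natDegree ≤ ep i L hi f ∧
      (Br him f (XX i m L)).coeff (ep i L hi f) ≠ 0 := by
  classical
  set ff : Fin i → ℝ := fun k => ((f k : ℕ) : ℝ) with hff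
  have hffi : Function.Injective ff := by
    intro a b hab
    have h1 : ((f a : ℕ) : ℝ) = ((f b : ℕ) : ℝ) := hab
    exact hf (Fin.ext (Nat.cast_injective h1))
  have hV : (Matrix.vandermonde ff).det ≠ 0 := Matrix.det_vandermonde_ne_zero_iff.2 hffi
  by_cases hlast : Fin.last (2 * i - 1) ∈ Set.range f
  · obtain ⟨k0, hk0⟩ := hlast
    have hrow : ∀ x : ℝ, Matrix.updateRow ((Matrix.vandermonde ff).map (C : ℝ →+* ℝ[X])) k0
        (fun l : Fin i => C (x ^ (l : ℕ))) =
        (Matrix.vandermonde (Function.update ff k0 x)).map (C : ℝ →+* ℝ[X]) := by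
      intro x
      ext1 k l
      by_cases hk : k = k0
      · subst hk
        simp [Matrix.vandermonde_apply]
      · simp [Matrix.updateRow_ne hk, Matrix.vandermonde_apply, Function.update_of_ne hk]
    have hM : (Matrix.of fun k l : Fin i => XX i m L (f k) (Fin.castLE him l)) =
        Matrix.updateRow ((Matrix.vandermonde ff).map (C : ℝ →+* ℝ[X])) k0
          ((X : ℝ[X]) ^ L • (fun l : Fin i => (C ((0 : ℝ) ^ (l : ℕ)) : ℝ[X])) +
            (X : ℝ[X]) ^ (L - 1) • (fun l : Fin i => (C ((1 : ℝ) ^ (l : ℕ)) : ℝ[X])) +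
            (fun l : Fin i => (C (ff k0 ^ (l : ℕ)) : ℝ[X]))) := by
      ext1 k l
      by_cases hk : k = k0
      · subst hk
        simp only [Matrix.of_apply, Matrix.updateRow_self, Pi.add_apply, Pi.smul_apply,
          smul_eq_mul, XX, hk0, if_true, hff, Fin.val_castLE]
      · have hne : f k ≠ Fin.last (2 * i - 1) := by
          intro h
          exact hk (hf (h.trans hk0.symm))
        simp only [Matrix.of_apply, Matrix.updateRow_ne hk, XX, hne, if_false, hff,
          Fin.val_castLE, Matrix.map_apply, Matrix.vandermonde_apply]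
    have hB : Br him f (XX i m L) = X ^ L * C ((Matrix.vandermonde (Function.update ff k0 0)).det) +
        X ^ (L - 1) * C ((Matrix.vandermonde (Function.update ff k0 1)).det) +
        C ((Matrix.vandermonde ff).det) := by
      unfold Br
      rw [hM, Matrix.det_updateRow_add, Matrix.det_updateRow_add, Matrix.det_updateRow_smul,
        Matrix.det_updateRow_smul, hrow, hrow, hrow, ← RingHom.mapMatrix_apply,
        ← RingHom.mapMatrix_apply, ← RingHom.mapMatrix_apply, ← RingHom.map_det,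
        ← RingHom.map_det, ← RingHom.map_det, Function.update_eq_self]
    have hcase : ∀ (x : Fin (2 * i - 1 + 1)), x ≠ Fin.last (2 * i - 1) →
        ((Matrix.vandermonde (Function.update ff k0 ((x : ℕ) : ℝ))).det ≠ 0 ↔ x ∉ Set.range f) := by
      intro x hx
      rw [Matrix.det_vandermonde_ne_zero_iff]
      constructor
      · rintro hinj ⟨k, hk⟩
        have hkk : k ≠ k0 := by
          rintro rfl
          exact hx (hk.symm.trans hk0)
        apply hkk
        apply hinj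
        rw [Function.update_self, Function.update_of_ne hkk, hff]
        simp only
        rw [hk]
      · intro hn a b hab
        by_cases ha : a = k0
        · by_cases hb : b = k0
          · rw [ha, hb]
          · exfalso
            rw [ha, Function.update_self, Function.update_of_ne hb] at hab
            exact hn ⟨b, Fin.ext (Nat.cast_injective (R := ℝ) hab.symm)⟩
        · by_cases hb : b = k0
          · exfalso
            rw [hb, Function.update_self, Function.update_of_ne ha] at hab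
            exact hn ⟨a, Fin.ext (Nat.cast_injective (R := ℝ) hab)⟩
          · rw [Function.update_of_ne ha, Function.update_of_ne hb] at hab
            exact hffi hab
    have h0 := hcase ⟨0, by omega⟩ (by
      intro h
      have := congrArg Fin.val h
      simp only [Fin.val_last] at this
      omega)
    have h1 := hcase ⟨1, by omega⟩ (by
      intro h
      have := congrArg Fin.val h
      simp only [Fin.val_last] at this
      omega)
    simp only [Nat.cast_zero, Nat.cast_one] at h0 h1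
    rw [hB]
    set A0 := (Matrix.vandermonde (Function.update ff k0 0)).det
    set A1 := (Matrix.vandermonde (Function.update ff k0 1)).det
    set A2 := (Matrix.vandermonde ff).det
    have hr : Fin.last (2 * i - 1) ∈ Set.range f := ⟨k0, hk0⟩
    unfold ep
    rw [if_pos hr]
    by_cases c0 : (⟨0, by omega⟩ : Fin (2 * i - 1 + 1)) ∈ Set.range f
    · rw [if_pos c0]
      have z0 : A0 = 0 := by
        by_contra h
        exact (h0.1 h) c0
      by_cases c1 : (⟨1, by omega⟩ : Fin (2 * i - 1 + 1)) ∈ Set.range f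
      · rw [if_pos c1]
        have z1 : A1 = 0 := by
          by_contra h
          exact (h1.1 h) c1
        rw [z0, z1]
        simp only [map_zero, mul_zero, zero_add]
        refine ⟨by rw [natDegree_C], ?_⟩
        rw [coeff_C_zero]
        exact hV
      · rw [if_neg c1]
        have z1 : A1 ≠ 0 := h1.2 c1
        rw [z0]
        simp only [map_zero, mul_zero, zero_add]
        refine ⟨?_, ?_⟩
        · refine (natDegree_add_le _ _).trans (max_le ?_ ?_)
          · rw [mul_comm]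
            exact natDegree_C_mul_X_pow_le _ _
          · rw [natDegree_C]
            omega
        · rw [coeff_add, mul_comm, coeff_C_mul, coeff_X_pow, if_pos rfl, coeff_C,
            if_neg (by omega)]
          simpa using z1
    · rw [if_neg c0]
      have z0 : A0 ≠ 0 := h0.2 c0
      refine ⟨?_, ?_⟩
      · refine (natDegree_add_le _ _).trans (max_le ((natDegree_add_le _ _).trans (max_le ?_ ?_)) ?_)
        · rw [mul_comm]
          exact natDegree_C_mul_X_pow_le _ _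
        · rw [mul_comm]
          exact (natDegree_C_mul_X_pow_le _ _).trans (by omega)
        · rw [natDegree_C]
          omega
      · rw [coeff_add, coeff_add, mul_comm, coeff_C_mul, coeff_X_pow, if_pos rfl, coeff_C,
            if_neg (by omega), mul_comm (X ^ (L - 1)), coeff_C_mul, coeff_X_pow,
            if_neg (by omega)]
        simpa using z0
  · have hB : Br him f (XX i m L) = C ((Matrix.vandermonde ff).det) := by
      unfold Br
      rw [RingHom.map_det]
      congr 1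
      ext1 k l
      have hne : f k ≠ Fin.last (2 * i - 1) := fun h => hlast ⟨k, h⟩
      simp only [Matrix.of_apply, XX, hne, if_false, hff,
          Fin.val_castLE, RingHom.mapMatrix_apply, Matrix.map_apply, Matrix.vandermonde_apply]
    rw [hB]
    unfold ep
    rw [if_neg hlast]
    refine ⟨by rw [natDegree_C], ?_⟩
    rw [coeff_C_zero]
    exact hV


open Classical in
/-- Type two: the last point, point 0, not point 1. -/
noncomputable def tx (i : ℕ) (hi : 3 ≤ i) (f : Fin i → Fin (2 * i - 1 + 1)) : ℕ :=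
  if Fin.last (2 * i - 1) ∈ Set.range f ∧ (⟨0, by omega⟩ : Fin (2 * i - 1 + 1)) ∈ Set.range f ∧
    (⟨1, by omega⟩ : Fin (2 * i - 1 + 1)) ∉ Set.range f then 1 else 0

open Classical in
/-- Type three: the last point, points 0 and 1. -/
noncomputable def tz (i : ℕ) (hi : 3 ≤ i) (f : Fin i → Fin (2 * i - 1 + 1)) : ℕ :=
  if Fin.last (2 * i - 1) ∈ Set.range f ∧ (⟨0, by omega⟩ : Fin (2 * i - 1 + 1)) ∈ Set.range f ∧
    (⟨1, by omega⟩ : Fin (2 * i - 1 + 1)) ∈ Set.range f then 1 else 0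

lemma ep_in (L : ℕ) (hL : 2 ≤ L) (hi : 3 ≤ i) (f : Fin i → Fin (2 * i - 1 + 1))
    (h : Fin.last (2 * i - 1) ∈ Set.range f) : ep i L hi f + tx i hi f + L * tz i hi f = L := by
  unfold ep tx tz
  by_cases c0 : (⟨0, by omega⟩ : Fin (2 * i - 1 + 1)) ∈ Set.range f
  · by_cases c1 : (⟨1, by omega⟩ : Fin (2 * i - 1 + 1)) ∈ Set.range f
    · rw [if_pos h, if_pos c0, if_pos c1, if_neg (fun h => h.2.2 c1), if_pos ⟨h, c0, c1⟩]
      omega
    · rw [if_pos h, if_pos c0, if_neg c1, if_pos ⟨h, c0, c1⟩, if_neg (fun h => c1 h.2.2)]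
      omega
  · rw [if_pos h, if_neg c0, if_neg (fun h => c0 h.2.1), if_neg (fun h => c0 h.2.1)]
    omega

lemma ep_out (L : ℕ) (hi : 3 ≤ i) (f : Fin i → Fin (2 * i - 1 + 1))
    (h : Fin.last (2 * i - 1) ∉ Set.range f) :
    ep i L hi f = 0 ∧ tx i hi f = 0 ∧ tz i hi f = 0 := by
  unfold ep tx tz
  exact ⟨if_neg h, if_neg (fun h' => h h'.1), if_neg (fun h' => h h'.1)⟩

/-- The first block. -/
noncomputable def bA (hi : 1 ≤ i) (σ : Equiv.Perm (Fin (2 * i - 1 + 1))) :
    Fin i → Fin (2 * i - 1 + 1) := fun k => σ (ee i hi (Sum.inl k))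

/-- The second block. -/
noncomputable def bB (hi : 1 ≤ i) (σ : Equiv.Perm (Fin (2 * i - 1 + 1))) :
    Fin i → Fin (2 * i - 1 + 1) := fun k => σ (ee i hi (Sum.inr k))

lemma bA_inj (hi : 1 ≤ i) (σ : Equiv.Perm (Fin (2 * i - 1 + 1))) :
    Function.Injective (bA hi σ) := by
  intro a b h
  have := (ee i hi).injective (σ.injective h)
  exact Sum.inl_injective this

lemma bB_inj (hi : 1 ≤ i) (σ : Equiv.Perm (Fin (2 * i - 1 + 1))) :
    Function.Injective (bB hi σ) := by
  intro a b h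
  have := (ee i hi).injective (σ.injective h)
  exact Sum.inr_injective this

lemma not_mem_B (hi : 1 ≤ i) (σ : Equiv.Perm (Fin (2 * i - 1 + 1))) {y : Fin (2 * i - 1 + 1)}
    (h : y ∈ Set.range (bA hi σ)) : y ∉ Set.range (bB hi σ) := by
  rintro ⟨k, hk⟩
  obtain ⟨l, hl⟩ := h
  have := (ee i hi).injective (σ.injective (hk.trans hl.symm))
  exact Sum.inr_ne_inl this

lemma mem_or (hi : 1 ≤ i) (σ : Equiv.Perm (Fin (2 * i - 1 + 1))) (y : Fin (2 * i - 1 + 1)) :
    y ∈ Set.range (bA hi σ) ∨ y ∈ Set.range (bB hi σ) := by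
  obtain ⟨x, hx⟩ := ((ee i hi).trans σ).surjective y
  rcases x with k | k
  · exact Or.inl ⟨k, hx⟩
  · exact Or.inr ⟨k, hx⟩

/-- The degree of the square of `DD`. -/
noncomputable def es (i L : ℕ) (hi : 3 ≤ i) (σ : Equiv.Perm (Fin (2 * i - 1 + 1))) : ℕ :=
  (ep i L hi (bA (by omega) σ) + ep i L hi (bB (by omega) σ)) +
    (ep i L hi (bA (by omega) σ) + ep i L hi (bB (by omega) σ))

noncomputable def xs (i : ℕ) (hi : 3 ≤ i) (σ : Equiv.Perm (Fin (2 * i - 1 + 1))) : ℕ :=
  tx i hi (bA (by omega) σ) + tx i hi (bB (by omega) σ)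

noncomputable def zs (i : ℕ) (hi : 3 ≤ i) (σ : Equiv.Perm (Fin (2 * i - 1 + 1))) : ℕ :=
  tz i hi (bA (by omega) σ) + tz i hi (bB (by omega) σ)

lemma es_add (L : ℕ) (hL : 2 ≤ L) (hi : 3 ≤ i) (σ : Equiv.Perm (Fin (2 * i - 1 + 1))) :
    es i L hi σ + 2 * xs i hi σ + 2 * L * zs i hi σ = 2 * L := by
  have hi1 : 1 ≤ i := by omega
  rcases mem_or hi1 σ (Fin.last (2 * i - 1)) with h | h
  · have h1 := ep_in L hL hi _ h
    obtain ⟨h2, h3, h4⟩ := ep_out L hi _ (not_mem_B hi1 σ h)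
    unfold es xs zs
    rw [h2, h3, h4]
    simp only [Nat.add_zero]
    rw [mul_assoc]
    omega
  · have h' : Fin.last (2 * i - 1) ∉ Set.range (bA hi1 σ) := fun h5 => not_mem_B hi1 σ h5 h
    have h1 := ep_in L hL hi _ h
    obtain ⟨h2, h3, h4⟩ := ep_out L hi _ h'
    unfold es xs zs
    rw [h2, h3, h4]
    simp only [Nat.zero_add]
    rw [mul_assoc]
    omega

lemma DD_deg (hi : 3 ≤ i) (him : i ≤ m) (L : ℕ) (hL : 2 ≤ L)
    (σ : Equiv.Perm (Fin (2 * i - 1 + 1))) :
    PD (DD (by omega : 1 ≤ i) him σ (XX i m L) ^ 2) (es i L hi σ) := by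
  have hi1 : 1 ≤ i := by omega
  have hA := Br_deg hi him L hL _ (bA_inj hi1 σ)
  have hB := Br_deg hi him L hL _ (bB_inj hi1 σ)
  apply PD.sq
  · exact (Polynomial.natDegree_mul_le).trans (Nat.add_le_add hA.1 hB.1)
  · have h := Polynomial.coeff_mul_add_eq_of_natDegree_le hA.1 hB.1
    unfold DD
    change (Br him (bA hi1 σ) (XX i m L) * Br him (bB hi1 σ) (XX i m L)).coeff _ ≠ 0
    rw [h]
    exact mul_ne_zero hA.2 hB.2

lemma exists_perm (hi : 3 ≤ i) (x0 x1 x2 : Fin i ⊕ Fin i) (h01 : x0 ≠ x1) (h02 : x0 ≠ x2)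
    (h12 : x1 ≠ x2) : ∃ σ : Equiv.Perm (Fin (2 * i - 1 + 1)),
      σ (ee i (by omega) x0) = Fin.last (2 * i - 1) ∧ σ (ee i (by omega) x1) = ⟨0, by omega⟩ ∧
      σ (ee i (by omega) x2) = ⟨1, by omega⟩ := by
  have hi1 : 1 ≤ i := by omega
  have g01 : (Fin.last (2 * i - 1) : Fin (2 * i - 1 + 1)) ≠ ⟨0, by omega⟩ := by
    intro h
    have := congrArg Fin.val h
    simp only [Fin.val_last] at this
    omega
  have g02 : (Fin.last (2 * i - 1) : Fin (2 * i - 1 + 1)) ≠ ⟨1, by omega⟩ := by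
    intro h
    have := congrArg Fin.val h
    simp only [Fin.val_last] at this
    omega
  have g12 : (⟨0, by omega⟩ : Fin (2 * i - 1 + 1)) ≠ ⟨1, by omega⟩ := by
    intro h
    have := congrArg Fin.val h
    simp at this
  have inj3 : ∀ {α : Type} (a b c : α), a ≠ b → a ≠ c → b ≠ c →
      Function.Injective (![a, b, c] : Fin 3 → α) := by
    intro α a b c hab hac hbc x y hxy
    fin_cases x <;> fin_cases y <;> first
      | rfl
      | (exfalso; simp at hxy; first | exact hab hxy | exact hac hxy | exact hbc hxy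
                                     | exact hab hxy.symm | exact hac hxy.symm | exact hbc hxy.symm)
  obtain ⟨σ, hσ⟩ := Equiv.Perm.exists_extending_pair
    (![ee i hi1 x0, ee i hi1 x1, ee i hi1 x2] : Fin 3 → Fin (2 * i - 1 + 1))
    (![Fin.last (2 * i - 1), ⟨0, by omega⟩, ⟨1, by omega⟩] : Fin 3 → Fin (2 * i - 1 + 1))
    (inj3 _ _ _ (fun h => h01 ((ee i hi1).injective h)) (fun h => h02 ((ee i hi1).injective h))
      (fun h => h12 ((ee i hi1).injective h)))
    (inj3 _ _ _ g01 g02 g12)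
  exact ⟨σ, hσ 0, hσ 1, hσ 2⟩

lemma exA (L : ℕ) (hi : 3 ≤ i) :
    ∃ σ : Equiv.Perm (Fin (2 * i - 1 + 1)), es i L hi σ = 2 * L := by
  have hi1 : 1 ≤ i := by omega
  obtain ⟨σ, h0, h1, h2⟩ := exists_perm hi (Sum.inl ⟨0, by omega⟩) (Sum.inr ⟨0, by omega⟩)
    (Sum.inr ⟨1, by omega⟩) (by simp) (by simp) (by simp [Fin.ext_iff])
  refine ⟨σ, ?_⟩
  have hA : Fin.last (2 * i - 1) ∈ Set.range (bA hi1 σ) := ⟨_, h0⟩
  have hz : (⟨0, by omega⟩ : Fin (2 * i - 1 + 1)) ∉ Set.range (bA hi1 σ) := fun h =>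
    not_mem_B hi1 σ h ⟨_, h1⟩
  have e1 : ep i L hi (bA hi1 σ) = L := by
    unfold ep
    rw [if_pos hA, if_neg hz]
  have e2 : ep i L hi (bB hi1 σ) = 0 := (ep_out L hi _ (not_mem_B hi1 σ hA)).1
  unfold es
  rw [e1, e2]
  omega

lemma exB (hi : 3 ≤ i) :
    ∃ σ : Equiv.Perm (Fin (2 * i - 1 + 1)), 1 ≤ xs i hi σ := by
  have hi1 : 1 ≤ i := by omega
  obtain ⟨σ, h0, h1, h2⟩ := exists_perm hi (Sum.inl ⟨0, by omega⟩) (Sum.inl ⟨1, by omega⟩)
    (Sum.inr ⟨1, by omega⟩) (by simp [Fin.ext_iff]) (by simp) (by simp)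
  refine ⟨σ, ?_⟩
  have hA : Fin.last (2 * i - 1) ∈ Set.range (bA hi1 σ) := ⟨_, h0⟩
  have hz : (⟨0, by omega⟩ : Fin (2 * i - 1 + 1)) ∈ Set.range (bA hi1 σ) := ⟨_, h1⟩
  have ho : (⟨1, by omega⟩ : Fin (2 * i - 1 + 1)) ∉ Set.range (bA hi1 σ) := fun h =>
    not_mem_B hi1 σ h ⟨_, h2⟩
  have e1 : tx i hi (bA hi1 σ) = 1 := by
    unfold tx
    rw [if_pos ⟨hA, hz, ho⟩]
  unfold xs
  rw [e1]
  omega

lemma exC (L : ℕ) (hi : 3 ≤ i) :
    ∃ σ : Equiv.Perm (Fin (2 * i - 1 + 1)), es i L hi σ = 0 := by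
  have hi1 : 1 ≤ i := by omega
  obtain ⟨σ, h0, h1, h2⟩ := exists_perm hi (Sum.inl ⟨0, by omega⟩) (Sum.inl ⟨1, by omega⟩)
    (Sum.inl ⟨2, by omega⟩) (by simp [Fin.ext_iff]) (by simp [Fin.ext_iff]) (by simp [Fin.ext_iff])
  refine ⟨σ, ?_⟩
  have hA : Fin.last (2 * i - 1) ∈ Set.range (bA hi1 σ) := ⟨_, h0⟩
  have hz : (⟨0, by omega⟩ : Fin (2 * i - 1 + 1)) ∈ Set.range (bA hi1 σ) := ⟨_, h1⟩
  have ho : (⟨1, by omega⟩ : Fin (2 * i - 1 + 1)) ∈ Set.range (bA hi1 σ) := ⟨_, h2⟩
  have e1 : ep i L hi (bA hi1 σ) = 0 := by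
    unfold ep
    rw [if_pos hA, if_pos hz, if_pos ho]
  have e2 : ep i L hi (bB hi1 σ) = 0 := (ep_out L hi _ (not_mem_B hi1 σ hA)).1
  unfold es
  rw [e1, e2]

/-- The degree of `GG` along the curve. -/
lemma GG_deg (hi : 3 ≤ i) (him : i ≤ m) (L : ℕ) (hL : 2 ≤ L) (a r k : ℕ) :
    PD (GG (by omega : 1 ≤ i) him a r k (XX i m L))
      (a * (2 * L) + r * (∑ σ, es i L hi σ) + (k + 1) * (∑ σ, es i L hi σ)) := by
  classical
  have hi1 : 1 ≤ i := by omega
  have h1 : PD (F1 hi1 him (XX i m L)) (2 * L) := by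
    obtain ⟨σ, hσ⟩ := exA (i := i) L hi
    exact PD.sum Finset.univ _ (es i L hi) (2 * L) (fun σ _ => DD_deg hi him L hL σ)
      (fun σ _ => by have := es_add L hL hi σ; omega) ⟨σ, Finset.mem_univ σ, hσ⟩
  have h2 : PD (F2 hi1 him (XX i m L)) (∑ σ, es i L hi σ) := by
    obtain ⟨σ, hσ⟩ := exC (i := i) L hi
    refine PD.sum Finset.univ _ (fun σ => ∑ τ ∈ Finset.univ.erase σ, es i L hi τ) _
      (fun σ _ => PD.prod _ _ _ (fun τ _ => DD_deg hi him L hL τ)) (fun σ _ => ?_)
      ⟨σ, Finset.mem_univ σ, ?_⟩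
    · exact Finset.sum_le_sum_of_subset (Finset.erase_subset _ _)
    · have := Finset.add_sum_erase Finset.univ (es i L hi) (Finset.mem_univ σ)
      rw [hσ, zero_add] at this
      exact this
  have h3 : PD (F3 hi1 him (XX i m L)) (∑ σ, es i L hi σ) :=
    PD.prod Finset.univ _ _ (fun σ _ => DD_deg hi him L hL σ)
  exact ((h1.pow a).mul (h2.pow r)).mul (h3.pow (k + 1))

lemma deg_inj {N n2 n3 D L h c : ℕ} (hN : 1 ≤ N) (hn : 1 ≤ n2) (hD : D + 2 * n2 + 2 * L * n3 = 2 * L * N)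
    (hL : 2 * h * n2 < L) (hc : 2 * N * (h + 1) ≤ c) {r k r' k' : ℕ} (hr : r < h) (hk : k < h)
    (hr' : r' < h) (hk' : k' < h)
    (he : (c - (N - 1) * r - N * (k + 1)) * (2 * L) + r * D + (k + 1) * D =
      (c - (N - 1) * r' - N * (k' + 1)) * (2 * L) + r' * D + (k' + 1) * D) :
    r = r' ∧ k = k' := by
  have key : ∀ x y : ℕ, x < h → y < h →
      (((c - (N - 1) * x - N * (y + 1) : ℕ) : ℤ)) = c - (N - 1) * x - N * (y + 1) := by
    intro x y hx hy
    have b1 : (N - 1) * x + N * (y + 1) ≤ c := by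
      calc (N - 1) * x + N * (y + 1) ≤ N * h + N * (h + 1) := by
            apply Nat.add_le_add
            · exact Nat.mul_le_mul (Nat.sub_le _ _) hx.le
            · exact Nat.mul_le_mul_left _ (by omega)
        _ ≤ 2 * N * (h + 1) := by nlinarith
        _ ≤ c := hc
    rw [Nat.cast_sub (by omega), Nat.cast_sub (by omega)]
    push_cast [Nat.cast_sub hN]
    ring
  have e1 : (((c - (N - 1) * r - N * (k + 1)) * (2 * L) + r * D + (k + 1) * D : ℕ) : ℤ) =
      (((c - (N - 1) * r' - N * (k' + 1)) * (2 * L) + r' * D + (k' + 1) * D : ℕ) : ℤ) :=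
    congrArg (fun n : ℕ => (n : ℤ)) he
  rw [Nat.cast_add, Nat.cast_add, Nat.cast_mul (c - (N - 1) * r - N * (k + 1)),
    Nat.cast_add, Nat.cast_add, Nat.cast_mul (c - (N - 1) * r' - N * (k' + 1)),
    key r k hr hk, key r' k' hr' hk'] at e1
  push_cast at e1
  have hD' : (D : ℤ) = 2 * L * N - 2 * n2 - 2 * L * n3 := by
    have := congrArg (fun n : ℕ => (n : ℤ)) hD
    push_cast at this
    linarith
  rw [hD'] at e1
  have e2 : ((r : ℤ) + k - r' - k') * n2 = L * ((r - r') - ((r : ℤ) + k - r' - k') * n3) := by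
    linarith
  have e3 : ((r : ℤ) + k - r' - k') * n2 = 0 := by
    apply Int.eq_zero_of_abs_lt_dvd (m := (L : ℤ)) ⟨_, e2⟩
    rw [abs_mul]
    have b2 : |(r : ℤ) + k - r' - k'| ≤ 2 * h := by
      rw [abs_le]
      constructor <;> omega
    have b3 : |(n2 : ℤ)| = n2 := abs_of_nonneg (by positivity)
    rw [b3]
    have hL' : (2 : ℤ) * h * n2 < L := by exact_mod_cast hL
    calc |(r : ℤ) + k - r' - k'| * n2 ≤ 2 * h * n2 := by
          apply mul_le_mul_of_nonneg_right b2 (by positivity)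
      _ < L := hL'
  have e4 : (r : ℤ) + k - r' - k' = 0 := by
    rcases mul_eq_zero.1 e3 with h5 | h5
    · exact h5
    · exfalso
      have : n2 = 0 := by exact_mod_cast h5
      omega
  rw [e4] at e2
  have hL0 : (L : ℤ) ≠ 0 := by
    have : 0 < L := by omega
    exact_mod_cast this.ne'
  have e5 : (r : ℤ) - r' = 0 := by
    have e6 : (L : ℤ) * ((r : ℤ) - r') = 0 := by linarith
    exact (mul_eq_zero.1 e6).resolve_left hL0
  constructor <;> omega

end Gen

end W7H

open W7H in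
theorem family {m i : ℕ} (hi : 3 ≤ i) (him : i ≤ m) : ∃ (N : ℕ) (P : Fin (2 * i - 1) → Fin m → ℂ),
    ∀ c h : ℕ, N * (h + 1) ≤ c →
    ∃ G : Fin h → Fin h → ((Fin (2 * i - 1 + 1) → Fin m → ℂ) → ℂ),
      (∀ r k, G r k ∈ MP (2 * i - 1 + 1) m (2 * c)) ∧
      (∀ r k (σ : Equiv.Perm (Fin (2 * i - 1 + 1))) p, G r k (fun j => p (σ j)) = G r k p) ∧
      (∀ r k, HWF (2 * i - 1 + 1) m ((4 * c) • om m i) (G r k)) ∧
      (∀ r k p (u v : Fin (2 * i - 1 + 1)), u ≠ v → p u = p v → G r k p = 0) ∧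
      LinearIndependent ℂ (fun rk : Fin h × Fin h => fun q : Fin m → ℂ =>
        G rk.1 rk.2 (Fin.snoc (α := fun _ => Fin m → ℂ) P q)) := by
  classical
  have hi1 : 1 ≤ i := by omega
  set N := Fintype.card (Equiv.Perm (Fin (2 * i - 1 + 1))) with hNdef
  have hN : 1 ≤ N := Fintype.card_pos
  refine ⟨2 * N, fun j l => ((j : ℕ) : ℂ) ^ (l : ℕ), ?_⟩
  intro c h hc
  have hdeg : ∀ r k : Fin h, (c - (N - 1) * (r : ℕ) - N * ((k : ℕ) + 1)) + (N - 1) * (r : ℕ) +
      N * ((k : ℕ) + 1) = c := by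
    intro r k
    have b1 : (N - 1) * (r : ℕ) + N * ((k : ℕ) + 1) ≤ c := by
      calc (N - 1) * (r : ℕ) + N * ((k : ℕ) + 1) ≤ N * h + N * (h + 1) := by
            apply Nat.add_le_add
            · exact Nat.mul_le_mul (Nat.sub_le _ _) r.isLt.le
            · exact Nat.mul_le_mul_left _ (by have := k.isLt; omega)
        _ ≤ 2 * N * (h + 1) := by nlinarith
        _ ≤ c := hc
    omega
  refine ⟨fun r k => GG hi1 him (c - (N - 1) * (r : ℕ) - N * ((k : ℕ) + 1)) r k,
    fun r k => GG_mem hi1 him _ _ _ c (hdeg r k), fun r k σ p => GG_perm hi1 him _ _ _ σ p,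
    fun r k => GG_act hi1 him _ _ _ c (hdeg r k),
    fun r k p u v huv hp => GG_diag hi him _ _ _ p u v huv hp, ?_⟩
  rw [Fintype.linearIndependent_iff]
  intro g hg
  set n2 := ∑ σ, xs i hi σ with hn2
  set n3 := ∑ σ, zs i hi σ with hn3
  set L := 2 * h * n2 + 2 with hLdef
  have hL2 : 2 ≤ L := by omega
  have hD : (∑ σ, es i L hi σ) + 2 * n2 + 2 * L * n3 = 2 * L * N := by
    rw [hn2, hn3, Finset.mul_sum, Finset.mul_sum, ← Finset.sum_add_distrib,
      ← Finset.sum_add_distrib, Finset.sum_congr rfl (fun σ _ => es_add L hL2 hi σ),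
      Finset.sum_const, Finset.card_univ, smul_eq_mul, mul_comm]
  have hn2' : 1 ≤ n2 := by
    obtain ⟨σ, hσ⟩ := exB hi
    exact hσ.trans (Finset.single_le_sum (f := xs i hi) (fun _ _ => Nat.zero_le _)
      (Finset.mem_univ σ))
  refine indep (fun rk : Fin h × Fin h =>
      GG hi1 him (c - (N - 1) * (rk.1 : ℕ) - N * ((rk.2 : ℕ) + 1)) rk.1 rk.2 (XX i m L))
    (fun rk => (c - (N - 1) * (rk.1 : ℕ) - N * ((rk.2 : ℕ) + 1)) * (2 * L) +
      (rk.1 : ℕ) * (∑ σ, es i L hi σ) + ((rk.2 : ℕ) + 1) * (∑ σ, es i L hi σ))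
    (fun rk => GG_deg hi him L hL2 _ _ _) ?_ g ?_
  · intro x y hxy
    have := deg_inj hN hn2' hD (h := h) (c := c) (by omega) hc x.1.isLt x.2.isLt y.1.isLt y.2.isLt hxy
    exact Prod.ext (Fin.ext this.1) (Fin.ext this.2)
  · intro t
    have h1 := congrFun hg (fun l => t ^ L * (0 : ℂ) ^ (l : ℕ) + t ^ (L - 1) * (1 : ℂ) ^ (l : ℕ) +
      (((Fin.last (2 * i - 1) : Fin (2 * i - 1 + 1)) : ℕ) : ℂ) ^ (l : ℕ))
    simp only [Finset.sum_apply, Pi.smul_apply, smul_eq_mul, Pi.zero_apply] at h1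
    rw [← h1]
    refine Finset.sum_congr rfl (fun rk _ => ?_)
    congr 1
    have hφ := map_GG ((Polynomial.evalRingHom t).comp (Polynomial.mapRingHom (algebraMap ℝ ℂ)))
      hi1 him (c - (N - 1) * (rk.1 : ℕ) - N * ((rk.2 : ℕ) + 1)) rk.1 rk.2 (XX i m L)
    simp only [RingHom.comp_apply, Polynomial.coe_mapRingHom, Polynomial.coe_evalRingHom] at hφ
    rw [hφ]
    congr 1
    funext j l
    refine Fin.lastCases ?_ (fun j => ?_) j
    · rw [Fin.snoc_last]
      simp [XX]
    · rw [Fin.snoc_castSucc]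
      have hne : Fin.castSucc j ≠ Fin.last (2 * i - 1) := Fin.castSucc_ne_last j
      simp [XX, hne]

end Vale.Agent.P181.FR

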